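import Mathlib
import Crest.Prelude.Def_MultiMarginal

/-!
Pushing a smooth compactly supported density forward under a local diffeomorphism.
-/

namespace Crest.Agent.R130

open MeasureTheory Set Filter Topology Crest.AnalysisR.OT
open scoped ENNReal ContDiff

lemma contDiff_det {E : Type*} [NormedAddCommGroup E] [NormedSpace ℝ E] [FiniteDimensional ℝ E] :
    ContDiff ℝ ∞ fun A : E →L[ℝ] E => A.det := by
  classical
  let b := Module.finBasis ℝ E
  have e : (fun A : E →L[ℝ] E => A.det) = fun A : E →L[ℝ] E =>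
      ∑ σ : Equiv.Perm (Fin (Module.finrank ℝ E)), ((Equiv.Perm.sign σ : ℤ) : ℝ) *
        ∏ i, (b.coord (σ i)).toContinuousLinearMap (A (b i)) := by
    funext A
    change LinearMap.det (A : E →ₗ[ℝ] E) = _
    rw [← LinearMap.det_toMatrix b, Matrix.det_apply']
    simp [LinearMap.toMatrix_apply]
  rw [e]
  refine ContDiff.sum fun σ _ => contDiff_const.mul (contDiff_prod fun i _ => ?_)
  exact (b.coord (σ i)).toContinuousLinearMap.contDiff.comp (contDiff_id.clm_apply contDiff_const)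

lemma lintegral_measOfDensity {E : Type*} [MeasureSpace E] {ρ : E → ℝ} (hρ : Measurable ρ)
    {f : E → ℝ≥0∞} (hf : Measurable f) :
    ∫⁻ x, f x ∂(measOfDensity ρ) = ∫⁻ x, ENNReal.ofReal (ρ x) * f x := by
  unfold measOfDensity
  rw [lintegral_withDensity_eq_lintegral_mul _ hρ.ennreal_ofReal hf]
  rfl

theorem exists_push {E : Type*} [NormedAddCommGroup E] [NormedSpace ℝ E] [FiniteDimensional ℝ E]
    [MeasureSpace E] [BorelSpace E] [(volume : Measure E).IsAddHaarMeasure]
    (ψ : E → ℝ) (hψ : ContDiff ℝ ∞ ψ) (hψ0 : ∀ x, 0 ≤ ψ x) (K : Set E) (hK : IsCompact K)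
    (hψK : ∀ x ∉ K, ψ x = 0) (T S : E → E) (hTm : Measurable T) (hTc : ContinuousOn T K)
    (V : Set E) (hV : IsOpen V) (hTV : MapsTo T K V) (hST : ∀ a ∈ K, S (T a) = a)
    (hS : ∀ y ∈ V, ContDiffAt ℝ ∞ S y ∧ (fderiv ℝ S y).det ≠ 0) (hinj : InjOn S V) :
    ∃ σ : E → ℝ, ContDiff ℝ ∞ σ ∧ (∀ y, 0 ≤ σ y) ∧ (∀ y ∉ T '' K, σ y = 0) ∧
      measOfDensity (fun y => σ y ^ 2) = (measOfDensity (fun x => ψ x ^ 2)).map T := by
  set σ : E → ℝ := V.indicator fun y => ψ (S y) * √|(fderiv ℝ S y).det| with hσ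
  have hback : ∀ y ∈ V, S y ∈ K → T (S y) = y := fun y hy hK' =>
    hinj (hTV hK') hy (hST _ hK')
  have hzero : ∀ y ∉ T '' K, σ y = 0 := by
    intro y hy
    by_cases hyV : y ∈ V
    · rw [hσ, indicator_of_mem hyV, hψK, zero_mul]
      exact fun h => hy ⟨_, h, hback y hyV h⟩
    · rw [hσ, indicator_of_notMem hyV]
  have hsm : ContDiff ℝ ∞ σ := by
    rw [contDiff_iff_contDiffAt]
    intro y
    by_cases hyV : y ∈ V
    · have h1 : ContDiffAt ℝ ∞ (fun y => ψ (S y) * √|(fderiv ℝ S y).det|) y := by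
        refine (hψ.contDiffAt.comp y (hS y hyV).1).mul ?_
        have h2 : ContDiffAt ℝ ∞ (fun y => (fderiv ℝ S y).det) y :=
          contDiff_det.contDiffAt.comp y ((hS y hyV).1.fderiv_right (by simp))
        exact (h2.abs (hS y hyV).2).sqrt (abs_ne_zero.2 (hS y hyV).2)
      refine h1.congr_of_eventuallyEq ?_
      filter_upwards [hV.mem_nhds hyV] with z hz
      rw [hσ, indicator_of_mem hz]
    · have h1 : y ∉ T '' K := by
        rintro ⟨a, ha, rfl⟩
        exact hyV (hTV ha)
      have h2 : IsClosed (T '' K) := (hK.image_of_continuousOn hTc).isClosed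
      refine (contDiffAt_const (c := (0 : ℝ))).congr_of_eventuallyEq ?_
      filter_upwards [h2.isOpen_compl.mem_nhds h1] with z hz using hzero z hz
  refine ⟨σ, hsm, fun y => indicator_nonneg (fun y _ => mul_nonneg (hψ0 _) (Real.sqrt_nonneg _)) y,
    hzero, ?_⟩
  refine Measure.ext_of_lintegral _ fun f hf => ?_
  have hfT : Measurable fun x => f (T x) := hf.comp hTm
  rw [lintegral_map hf hTm, lintegral_measOfDensity (hsm.continuous.measurable.pow_const 2) hf,
    lintegral_measOfDensity (hψ.continuous.measurable.pow_const 2) hfT]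
  have h1 := lintegral_image_eq_lintegral_abs_det_fderiv_mul volume hV.measurableSet
    (f := S) (f' := fderiv ℝ S)
    (fun y hy => ((hS y hy).1.differentiableAt (by simp)).hasFDerivAt.hasFDerivWithinAt) hinj
    (fun a => ENNReal.ofReal (ψ a ^ 2) * f (T a))
  have h2 : ∫⁻ a in S '' V, ENNReal.ofReal (ψ a ^ 2) * f (T a) =
      ∫⁻ a, ENNReal.ofReal (ψ a ^ 2) * f (T a) := by
    refine setLIntegral_eq_of_support_subset fun a ha => ?_
    by_contra hcon
    have : a ∉ K := fun h => hcon ⟨T a, hTV h, hST a h⟩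
    exact ha (by simp [hψK a this])
  rw [← h2, h1, ← lintegral_indicator hV.measurableSet]
  congr 1
  funext y
  by_cases hyV : y ∈ V
  · rw [hσ, indicator_of_mem hyV, indicator_of_mem hyV, mul_pow, Real.sq_sqrt (abs_nonneg _),
      ENNReal.ofReal_mul (sq_nonneg _)]
    by_cases hK' : S y ∈ K
    · rw [hback y hyV hK']; ring
    · simp [hψK _ hK']
  · rw [hσ, indicator_of_notMem hyV, indicator_of_notMem hyV]; simp

lemma exists_measurable_eventuallyEq {X Y : Type*} [TopologicalSpace X] [MeasurableSpace X]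
    [OpensMeasurableSpace X] [TopologicalSpace Y] [MeasurableSpace Y] [BorelSpace Y]
    {f : X → Y} {x₀ : X} (h : ∀ᶠ x in 𝓝 x₀, ContinuousAt f x) :
    ∃ g : X → Y, Measurable g ∧ g =ᶠ[𝓝 x₀] f := by
  classical
  obtain ⟨t, ht, hto, hx⟩ := eventually_nhds_iff.1 h
  refine ⟨t.piecewise f fun _ => f x₀, ?_, ?_⟩
  · exact ContinuousOn.measurable_piecewise (fun x hx => (ht x hx).continuousWithinAt)
      continuousOn_const hto.measurableSet
  · filter_upwards [hto.mem_nhds hx] with x hx using piecewise_eq_of_mem _ _ _ hx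

end Crest.Agent.R130
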