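import Mathlib

/-!
The local sheet of optimal triples near the configuration `(0, -e, e)`.
-/

namespace Crest.Agent.R130

open Set Filter Topology
open scoped RealInnerProductSpace ContDiff

section IFT

variable {X Y Z : Type*} [NormedAddCommGroup X] [NormedSpace ℝ X] [FiniteDimensional ℝ X]
  [NormedAddCommGroup Y] [NormedSpace ℝ Y] [FiniteDimensional ℝ Y]
  [NormedAddCommGroup Z] [NormedSpace ℝ Z] [FiniteDimensional ℝ Z]

lemma local_param (N : X → Y) (P : X →L[ℝ] Z) (p₀ : X) (hN : ContDiffAt ℝ ω N p₀)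
    (N' : X →L[ℝ] Y) (hN' : HasFDerivAt N N' p₀) (hinj : ∀ v, N' v = 0 → P v = 0 → v = 0)
    (hdim : Module.finrank ℝ X = Module.finrank ℝ (Y × Z)) :
    ∃ Γ : Z → X, ContDiffAt ℝ ω Γ (P p₀) ∧ Γ (P p₀) = p₀ ∧
      (∀ᶠ y in 𝓝 (P p₀), N (Γ y) = N p₀ ∧ P (Γ y) = y) ∧
      ∀ᶠ p in 𝓝 p₀, N p = N p₀ → Γ (P p) = p := by
  have hc : CompleteSpace X := FiniteDimensional.complete ℝ X
  have hinj' : Function.Injective ((N'.prod P : X →L[ℝ] Y × Z) : X →ₗ[ℝ] Y × Z) := by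
    rw [injective_iff_map_eq_zero]
    intro v hv
    have hv' : (N' v, P v) = (0, 0) := hv
    exact hinj v (congrArg Prod.fst hv') (congrArg Prod.snd hv')
  set L : X ≃L[ℝ] Y × Z :=
    (LinearMap.linearEquivOfInjective _ hinj' hdim).toContinuousLinearEquiv with hL
  have hLe : (L : X →L[ℝ] Y × Z) = N'.prod P := by
    ext v <;> rfl
  have hΨ : ContDiffAt ℝ ω (fun p => (N p, P p)) p₀ := hN.prodMk P.contDiff.contDiffAt
  have hΨ' : HasFDerivAt (fun p => (N p, P p)) (L : X →L[ℝ] Y × Z) p₀ := by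
    rw [hLe]; exact hN'.prodMk P.hasFDerivAt
  have hn : (ω : WithTop ℕ∞) ≠ 0 := by simp
  have hs := hΨ.hasStrictFDerivAt' hΨ' hn
  refine ⟨fun y => hΨ.localInverse hΨ' hn (N p₀, y), ?_, ?_, ?_, ?_⟩
  · exact ContDiffAt.comp (P p₀) (g := hΨ.localInverse hΨ' hn) (f := fun y => (N p₀, y))
      (hΨ.to_localInverse hΨ' hn) (contDiffAt_const.prodMk contDiffAt_id)
  · exact hΨ.localInverse_apply_image hΨ' hn
  · have h1 : Tendsto (fun y : Z => (N p₀, y)) (𝓝 (P p₀)) (𝓝 (N p₀, P p₀)) :=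
      (continuous_const.prodMk continuous_id).tendsto _
    filter_upwards [h1.eventually hs.eventually_right_inverse] with y hy
    exact ⟨congrArg Prod.fst hy, congrArg Prod.snd hy⟩
  · filter_upwards [hs.eventually_left_inverse] with p hp hNp
    rw [← hNp]
    exact hp

end IFT

variable {E : Type*} [NormedAddCommGroup E] [InnerProductSpace ℝ E]

/-- The pair potential. -/
noncomputable def phi (s : ℝ) (z : E) : ℝ := ‖z‖ ^ (-s)

/-- Its gradient. -/
noncomputable def FF (s : ℝ) (z : E) : E := (-s * ‖z‖ ^ (-s - 2)) • z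

lemma hasFDerivAt_norm_rpow' (p : ℝ) {z : E} (hz : z ≠ 0) :
    HasFDerivAt (fun x : E => ‖x‖ ^ p) ((p * ‖z‖ ^ (p - 2)) • innerSL ℝ z) z := by
  have hz' : 0 < ‖z‖ := norm_pos_iff.2 hz
  have h1 := (hasStrictFDerivAt_norm_sq z).hasFDerivAt.rpow_const (p := p / 2)
    (Or.inl (by positivity))
  have e : (fun x : E => (‖x‖ ^ 2) ^ (p / 2)) = fun x : E => ‖x‖ ^ p := by
    funext x
    rw [← Real.rpow_natCast, ← Real.rpow_mul (norm_nonneg _)]
    congr 1
    push_cast; ring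
  rw [e] at h1
  convert h1 using 1
  ext v
  have e2 : (‖z‖ ^ 2) ^ (p / 2 - 1) = ‖z‖ ^ (p - 2) := by
    rw [← Real.rpow_natCast, ← Real.rpow_mul (norm_nonneg _)]
    congr 1
    push_cast; ring
  simp only [smul_apply, innerSL_apply_apply, smul_eq_mul, e2, two_smul,
    add_apply]
  ring

lemma hasDerivAt_phi_line (s : ℝ) (z w : E) (t : ℝ) (h : z + t • w ≠ 0) :
    HasDerivAt (fun t : ℝ => phi s (z + t • w)) ⟪FF s (z + t • w), w⟫ t := by
  have h1 : HasDerivAt (fun t : ℝ => z + t • w) w t := by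
    simpa using ((hasDerivAt_id t).smul_const w).const_add z
  have h2 := (hasFDerivAt_norm_rpow' (-s) h).comp_hasDerivAt t h1
  refine HasDerivAt.congr_deriv h2 ?_
  simp only [FF, smul_apply, innerSL_apply_apply, smul_eq_mul,
    real_inner_smul_left]

lemma hasDerivAt_normsq_line (z w : E) (t : ℝ) :
    HasDerivAt (fun t : ℝ => ‖z + t • w‖ ^ 2) (2 * ⟪z + t • w, w⟫) t := by
  have h1 : HasDerivAt (fun t : ℝ => z + t • w) w t := by
    simpa using ((hasDerivAt_id t).smul_const w).const_add z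
  exact h1.norm_sq

lemma contDiffAt_FF (s : ℝ) {z : E} (hz : z ≠ 0) : ContDiffAt ℝ ω (FF s) z := by
  unfold FF
  refine ContDiffAt.smul (contDiffAt_const.mul ?_) contDiffAt_id
  exact (contDiffAt_norm ℝ hz).rpow_const_of_ne (norm_ne_zero_iff.2 hz)

lemma continuousAt_phi (s : ℝ) {z : E} (hz : z ≠ 0) : ContinuousAt (phi s) z :=
  (hasFDerivAt_norm_rpow' (-s) hz).continuousAt

/-- The normalised Hessian of the pair potential along `e`. -/
noncomputable def Jl (s : ℝ) (e : E) : E →L[ℝ] E :=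
  -ContinuousLinearMap.id ℝ E + (s + 2) • (innerSL ℝ e).smulRight e

lemma Jl_apply (s : ℝ) (e h : E) : Jl s e h = -h + ((s + 2) * ⟪e, h⟫) • e := by
  simp [Jl, mul_smul]

lemma hasFDerivAt_FF (s : ℝ) {e : E} (he : ‖e‖ = 1) {τ : ℝ} (hτ : τ ≠ 0) :
    HasFDerivAt (FF s) ((s * |τ| ^ (-s - 2)) • Jl s e) (τ • e) := by
  have hne : τ • e ≠ 0 := smul_ne_zero hτ (by rintro rfl; simp at he)
  have hn : ‖τ • e‖ = |τ| := by rw [norm_smul, he, mul_one, Real.norm_eq_abs]
  have h1 := ((hasFDerivAt_norm_rpow' (-s - 2) hne).const_mul (-s)).smul (hasFDerivAt_id (τ • e))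
  refine HasFDerivAt.congr_fderiv h1 ?_
  ext h
  have hτ' : 0 < |τ| := abs_pos.2 hτ
  have e1 : |τ| ^ (-s - 2) = |τ| ^ (-s - 2 - 2) * (τ * τ) := by
    rw [← abs_mul_abs_self τ, ← sq, ← Real.rpow_natCast, ← Real.rpow_add hτ']
    congr 1
    push_cast; ring
  simp only [add_apply, smul_apply,
    ContinuousLinearMap.id_apply, ContinuousLinearMap.smulRight_apply, innerSL_apply_apply,
    smul_eq_mul, id, hn, Jl_apply, real_inner_smul_left, smul_add, smul_smul, smul_neg]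
  rw [← neg_smul]
  congr 2
  · ring
  · conv_rhs => rw [e1]
    ring

lemma inner_Jl_ge {s : ℝ} (hs : 0 < s) (e h : E) : -‖h‖ ^ 2 ≤ ⟪Jl s e h, h⟫ := by
  rw [Jl_apply, inner_add_left, inner_neg_left, real_inner_smul_left, real_inner_self_eq_norm_sq]
  have : 0 ≤ (s + 2) * ⟪e, h⟫ * ⟪e, h⟫ := by
    rw [mul_assoc]; exact mul_nonneg (by linarith) (mul_self_nonneg _)
  linarith

/-- If `x • J h + y • h = 0` with non-resonant coefficients then `h = 0`. -/
lemma eq_zero_of_Jl {s : ℝ} {e : E} (he : ‖e‖ = 1) {x y : ℝ} (h1 : x * (s + 1) + y ≠ 0)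
    (h2 : y - x ≠ 0) {h : E} (hh : x • Jl s e h + y • h = 0) : h = 0 := by
  have h3 := congrArg (fun v => ⟪e, v⟫) hh
  simp only [Jl_apply, inner_add_right, inner_smul_right, inner_neg_right, inner_zero_right,
    real_inner_self_eq_norm_sq, he] at h3
  have h4 : ⟪e, h⟫ = 0 := by
    have : (x * (s + 1) + y) * ⟪e, h⟫ = 0 := by linarith
    exact (mul_eq_zero.1 this).resolve_left h1
  rw [Jl_apply, h4] at hh
  have : (y - x) • h = 0 := by
    rw [← hh]; simp [sub_smul]; abel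
  exact (smul_eq_zero.1 this).resolve_left h2

/-- The real three-body cost. -/
noncomputable def cR (s : ℝ) (p : E × E × E) : ℝ :=
  phi s (p.1 - p.2.1) + phi s (p.1 - p.2.2) + phi s (p.2.1 - p.2.2)

/-- The force on the second particle at the base configuration. -/
noncomputable def vv (s : ℝ) (e : E) : E := -FF s e + FF s ((-2 : ℝ) • e)

/-- The cost with the two quadratic potentials removed. -/
noncomputable def GG (s : ℝ) (e : E) (p : E × E × E) : ℝ :=
  cR s p + 2 * s * ‖p.1‖ ^ 2 + 2 * s * ‖p.2.1 + e‖ ^ 2 - ⟪vv s e, p.2.1⟫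

/-- Its gradient in the first two variables. -/
noncomputable def NN (s : ℝ) (e : E) (p : E × E × E) : E × E :=
  (FF s (p.1 - p.2.1) + FF s (p.1 - p.2.2) + (4 * s) • p.1,
   -FF s (p.1 - p.2.1) + FF s (p.2.1 - p.2.2) + (4 * s) • (p.2.1 + e) - vv s e)

lemma NN_base (s : ℝ) (e : E) : NN s e (0, -e, e) = 0 := by
  have h2 : -e - e = (-2 : ℝ) • e := by rw [neg_smul, two_smul]; abel
  simp only [NN, vv, zero_sub, neg_neg, h2, smul_zero, add_zero, neg_add_cancel, sub_self]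
  simp [FF]

/-- The three differences as continuous linear maps. -/
noncomputable def d12 : (E × E × E) →L[ℝ] E :=
  ContinuousLinearMap.fst ℝ E (E × E) -
    (ContinuousLinearMap.fst ℝ E E).comp (ContinuousLinearMap.snd ℝ E (E × E))
noncomputable def d13 : (E × E × E) →L[ℝ] E :=
  ContinuousLinearMap.fst ℝ E (E × E) -
    (ContinuousLinearMap.snd ℝ E E).comp (ContinuousLinearMap.snd ℝ E (E × E))
noncomputable def d23 : (E × E × E) →L[ℝ] E :=
  (ContinuousLinearMap.fst ℝ E E).comp (ContinuousLinearMap.snd ℝ E (E × E)) -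
    (ContinuousLinearMap.snd ℝ E E).comp (ContinuousLinearMap.snd ℝ E (E × E))

lemma hasFDerivAt_d12 (p : E × E × E) :
    HasFDerivAt (fun p : E × E × E => p.1 - p.2.1) d12 p :=
  hasFDerivAt_fst.sub (hasFDerivAt_fst.comp p hasFDerivAt_snd)
lemma hasFDerivAt_d13 (p : E × E × E) :
    HasFDerivAt (fun p : E × E × E => p.1 - p.2.2) d13 p :=
  hasFDerivAt_fst.sub (hasFDerivAt_snd.comp p hasFDerivAt_snd)
lemma hasFDerivAt_d23 (p : E × E × E) :
    HasFDerivAt (fun p : E × E × E => p.2.1 - p.2.2) d23 p :=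
  (hasFDerivAt_fst.comp p hasFDerivAt_snd).sub (hasFDerivAt_snd.comp p hasFDerivAt_snd)

lemma exists_deriv_NN (s : ℝ) {e : E} (he : ‖e‖ = 1) :
    ∃ N' : (E × E × E) →L[ℝ] (E × E), HasFDerivAt (NN s e) N' (0, -e, e) ∧
      ∀ α β γ : E, N' (α, β, γ) =
        (s • Jl s e (α - β) + s • Jl s e (α - γ) + (4 * s) • α,
         -(s • Jl s e (α - β)) + (s * 2 ^ (-s - 2)) • Jl s e (β - γ) + (4 * s) • β) := by
  have h1 : HasFDerivAt (fun p : E × E × E => FF s (p.1 - p.2.1))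
      (((s * |(1 : ℝ)| ^ (-s - 2)) • Jl s e).comp d12) (0, -e, e) := by
    have := hasFDerivAt_FF s he (τ := 1) one_ne_zero
    exact HasFDerivAt.comp (0, -e, e) (g := FF s) (by convert this using 1; simp)
      (hasFDerivAt_d12 _)
  have h2 : HasFDerivAt (fun p : E × E × E => FF s (p.1 - p.2.2))
      (((s * |(-1 : ℝ)| ^ (-s - 2)) • Jl s e).comp d13) (0, -e, e) := by
    have := hasFDerivAt_FF s he (τ := -1) (by norm_num)
    exact HasFDerivAt.comp (0, -e, e) (g := FF s) (by convert this using 1; simp)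
      (hasFDerivAt_d13 _)
  have h3 : HasFDerivAt (fun p : E × E × E => FF s (p.2.1 - p.2.2))
      (((s * |(-2 : ℝ)| ^ (-s - 2)) • Jl s e).comp d23) (0, -e, e) := by
    have := hasFDerivAt_FF s he (τ := -2) (by norm_num)
    refine HasFDerivAt.comp (0, -e, e) (g := FF s) ?_ (hasFDerivAt_d23 _)
    convert this using 1
    simp only
    rw [neg_smul, two_smul]; abel
  have h4 : HasFDerivAt (fun p : E × E × E => (4 * s) • p.1)
      ((4 * s) • ContinuousLinearMap.fst ℝ E (E × E)) (0, -e, e) :=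
    hasFDerivAt_fst.const_smul _
  have h5 : HasFDerivAt (fun p : E × E × E => (4 * s) • (p.2.1 + e))
      ((4 * s) • (ContinuousLinearMap.fst ℝ E E).comp (ContinuousLinearMap.snd ℝ E (E × E)))
      (0, -e, e) :=
    ((hasFDerivAt_fst.comp _ hasFDerivAt_snd).add_const e).const_smul _
  refine ⟨_, ((h1.add h2).add h4).prodMk (((h1.neg.add h3).add h5).sub_const (vv s e)), ?_⟩
  intro α β γ
  simp [d12, d13, d23, smul_sub]

lemma contDiffAt_NN (s : ℝ) {e : E} (he : ‖e‖ = 1) : ContDiffAt ℝ ω (NN s e) (0, -e, e) := by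
  have he0 : e ≠ 0 := by rintro rfl; simp at he
  have h1 : ContDiffAt ℝ ω (fun p : E × E × E => FF s (p.1 - p.2.1)) (0, -e, e) :=
    ContDiffAt.comp (0, -e, e) (g := FF s) (contDiffAt_FF s (by simpa using he0)) (by fun_prop)
  have h2 : ContDiffAt ℝ ω (fun p : E × E × E => FF s (p.1 - p.2.2)) (0, -e, e) :=
    ContDiffAt.comp (0, -e, e) (g := FF s) (contDiffAt_FF s (by simpa using he0)) (by fun_prop)
  have h3 : ContDiffAt ℝ ω (fun p : E × E × E => FF s (p.2.1 - p.2.2)) (0, -e, e) := by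
    refine ContDiffAt.comp (0, -e, e) (g := FF s) (contDiffAt_FF s ?_) (by fun_prop)
    have h2 : -e - e = (-2 : ℝ) • e := by rw [neg_smul, two_smul]; abel
    simp only [h2]
    exact smul_ne_zero (by norm_num) he0
  unfold NN
  exact ((h1.add h2).add (by fun_prop)).prodMk
    (((h1.neg.add h3).add (by fun_prop)).sub contDiffAt_const)

lemma kappa_bounds {s : ℝ} (hs : 0 < s) : 0 < (2 : ℝ) ^ (-s - 2) ∧ (2 : ℝ) ^ (-s - 2) < 1 / 4 := by
  refine ⟨by positivity, ?_⟩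
  have : (2 : ℝ) ^ (-s - 2) < 2 ^ (-2 : ℝ) :=
    Real.rpow_lt_rpow_of_exponent_lt (by norm_num) (by linarith)
  refine this.trans_le (le_of_eq ?_)
  rw [Real.rpow_neg (by norm_num)]
  norm_num

lemma quad_ge {s : ℝ} (hs : 0 < s) (e α β : E) :
    s * (‖α‖ ^ 2 + ‖β‖ ^ 2) ≤
      ⟪s • Jl s e (α - β) + s • Jl s e (α - 0) + (4 * s) • α, α⟫ +
      ⟪-(s • Jl s e (α - β)) + (s * 2 ^ (-s - 2)) • Jl s e (β - 0) + (4 * s) • β, β⟫ := by
  obtain ⟨hκ0, hκ1⟩ := kappa_bounds hs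
  set κ := (2 : ℝ) ^ (-s - 2)
  have h1 := inner_Jl_ge hs e (α - β)
  have h2 := inner_Jl_ge hs e α
  have h3 := inner_Jl_ge hs e β
  have h4 : ‖α - β‖ ^ 2 ≤ 2 * ‖α‖ ^ 2 + 2 * ‖β‖ ^ 2 := by
    have := norm_sub_le α β
    have h5 := norm_nonneg (α - β)
    nlinarith [sq_nonneg (‖α‖ - ‖β‖)]
  rw [inner_sub_right] at h1
  simp only [sub_zero, inner_add_left, inner_neg_left, real_inner_smul_left,
    real_inner_self_eq_norm_sq]
  have h6 : -(‖β‖ ^ 2) ≤ κ * ⟪Jl s e β, β⟫ := by nlinarith [sq_nonneg ‖β‖]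
  nlinarith

/-- Strict minimality in the first two variables near the base configuration. -/
lemma exists_strict_min {s : ℝ} (hs : 0 < s) {e : E} (he : ‖e‖ = 1) :
    ∃ δ > 0, ∀ p ∈ Metric.ball ((0, -e, e) : E × E × E) δ,
      ∀ q ∈ Metric.ball ((0, -e, e) : E × E × E) δ, NN s e q = 0 → q.2.2 = p.2.2 → p ≠ q →
        GG s e q < GG s e p := by
  obtain ⟨N', hN', hN'e⟩ := exists_deriv_NN s he
  have hst := (contDiffAt_NN s he).hasStrictFDerivAt' hN' (by simp)
  have h1 := hst.isLittleO.def (c := s / 4) (by positivity)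
  have he0 : e ≠ 0 := by rintro rfl; simp at he
  have h2 : ∀ᶠ p : E × E × E in 𝓝 (0, -e, e),
      p.1 - p.2.1 ≠ 0 ∧ p.1 - p.2.2 ≠ 0 ∧ p.2.1 - p.2.2 ≠ 0 := by
    refine Eventually.and ?_ (Eventually.and ?_ ?_)
    · exact ContinuousAt.eventually_ne (by fun_prop) (by simpa using he0)
    · exact ContinuousAt.eventually_ne (by fun_prop) (by simpa using he0)
    · refine ContinuousAt.eventually_ne (by fun_prop) ?_
      have h2 : -e - e = (-2 : ℝ) • e := by rw [neg_smul, two_smul]; abel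
      simp only [h2]
      exact smul_ne_zero (by norm_num) he0
  obtain ⟨δ₁, hδ₁, h1'⟩ := Metric.eventually_nhds_iff_ball.1 h1
  obtain ⟨δ₂, hδ₂, h2'⟩ := Metric.eventually_nhds_iff_ball.1 h2
  refine ⟨min δ₁ δ₂, lt_min hδ₁ hδ₂, ?_⟩
  rintro ⟨a, b, c⟩ hp ⟨a', b', c'⟩ hq hN hc hne
  simp only at hc
  subst hc
  set α := a - a' with hα
  set β := b - b' with hβ
  have hseg : ∀ t ∈ Icc (0 : ℝ) 1, ((a' + t • α, b' + t • β, c') : E × E × E) ∈
      Metric.ball ((0, -e, e) : E × E × E) (min δ₁ δ₂) := by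
    intro t ht
    have := (convex_ball ((0, -e, e) : E × E × E) (min δ₁ δ₂)).add_smul_sub_mem hq hp ht
    simpa using this
  have hder : ∀ t ∈ Icc (0 : ℝ) 1, HasDerivAt (fun t : ℝ => GG s e (a' + t • α, b' + t • β, c'))
      (⟪(NN s e (a' + t • α, b' + t • β, c')).1, α⟫ +
        ⟪(NN s e (a' + t • α, b' + t • β, c')).2, β⟫) t := by
    intro t ht
    obtain ⟨n1, n2, n3⟩ := h2' _ (Metric.ball_subset_ball (min_le_right _ _) (hseg t ht))
    simp only at n1 n2 n3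
    have e1 : ∀ t : ℝ, a' + t • α - (b' + t • β) = (a' - b') + t • (α - β) := fun t => by
      rw [smul_sub t α β]; abel
    have e2 : ∀ t : ℝ, a' + t • α - c' = (a' - c') + t • α := fun t => by abel
    have e3 : ∀ t : ℝ, b' + t • β - c' = (b' - c') + t • β := fun t => by abel
    have e4 : ∀ t : ℝ, b' + t • β + e = (b' + e) + t • β := fun t => by abel
    rw [e1] at n1; rw [e2] at n2; rw [e3] at n3
    have d1 := hasDerivAt_phi_line s _ _ t n1
    have d2 := hasDerivAt_phi_line s _ _ t n2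
    have d3 := hasDerivAt_phi_line s _ _ t n3
    have d4 := (hasDerivAt_normsq_line a' α t).const_mul (2 * s)
    have d5 := (hasDerivAt_normsq_line (b' + e) β t).const_mul (2 * s)
    have d6 : HasDerivAt (fun t : ℝ => ⟪vv s e, b' + t • β⟫) ⟪vv s e, β⟫ t := by
      simp only [inner_add_right, real_inner_smul_right]
      simpa using ((hasDerivAt_id t).mul_const ⟪vv s e, β⟫).const_add ⟪vv s e, b'⟫
    have := ((((d1.add d2).add d3).add d4).add d5).sub d6
    simp only [GG, cR, NN, e1, e2, e3, e4]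
    refine HasDerivAt.congr_deriv this ?_
    simp only [inner_add_left, inner_sub_left, inner_neg_left, inner_sub_right,
      real_inner_smul_left]
    ring
  obtain ⟨t, ht, hslope⟩ := exists_hasDerivAt_eq_slope _ _ zero_lt_one
    (fun t ht => (hder t ht).continuousAt.continuousWithinAt)
    (fun t ht => hder t (Ioo_subset_Icc_self ht))
  simp only [one_smul, zero_smul, add_zero, sub_zero, div_one, hα, hβ, add_sub_cancel] at hslope
  rw [← hα, ← hβ] at hslope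
  rw [← sub_pos, ← hslope]
  have hb := h1' (((a' + t • α, b' + t • β, c') : E × E × E), (a', b', c')) (by
    rw [← ball_prod_same]
    exact ⟨Metric.ball_subset_ball (min_le_left _ _) (hseg t (Ioo_subset_Icc_self ht)),
      Metric.ball_subset_ball (min_le_left _ _) hq⟩)
  have e5 : ((a' + t • α, b' + t • β, c') : E × E × E) - (a', b', c') = t • (α, β, 0) := by simp
  simp only [hN, sub_zero, e5, map_smul] at hb
  set w := NN s e (a' + t • α, b' + t • β, c') with hw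
  set r := w - t • N' (α, β, 0) with hr
  have hq := quad_ge hs e α β
  have hq' : s * (‖α‖ ^ 2 + ‖β‖ ^ 2) ≤ ⟪(N' (α, β, 0)).1, α⟫ + ⟪(N' (α, β, 0)).2, β⟫ := by
    rw [hN'e]; exact hq
  have hwr : w = r + t • N' (α, β, 0) := by rw [hr]; abel
  have hm : ‖t • ((α, β, 0) : E × E × E)‖ ≤ t * (‖α‖ + ‖β‖) := by
    rw [norm_smul, Real.norm_of_nonneg ht.1.le]
    refine mul_le_mul_of_nonneg_left ?_ ht.1.le
    simp only [Prod.norm_mk, norm_zero]
    have := norm_nonneg α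
    have := norm_nonneg β
    exact max_le (by linarith) (max_le (by linarith) (by linarith))
  have hr1 : ‖r.1‖ ≤ s / 4 * (t * (‖α‖ + ‖β‖)) :=
    (norm_fst_le r).trans (hb.trans (by gcongr))
  have hr2 : ‖r.2‖ ≤ s / 4 * (t * (‖α‖ + ‖β‖)) :=
    (norm_snd_le r).trans (hb.trans (by gcongr))
  have i1 : -(‖r.1‖ * ‖α‖) ≤ ⟪r.1, α⟫ := neg_le_of_abs_le (abs_real_inner_le_norm _ _)
  have i2 : -(‖r.2‖ * ‖β‖) ≤ ⟪r.2, β⟫ := neg_le_of_abs_le (abs_real_inner_le_norm _ _)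
  have hpos : 0 < ‖α‖ ^ 2 + ‖β‖ ^ 2 := by
    by_contra hcon
    have h7 : ‖α‖ ^ 2 = 0 := by nlinarith [sq_nonneg ‖α‖, sq_nonneg ‖β‖]
    have h8 : ‖β‖ ^ 2 = 0 := by nlinarith [sq_nonneg ‖α‖, sq_nonneg ‖β‖]
    have h9 : a = a' := sub_eq_zero.1 (by simpa using h7)
    have h10 : b = b' := sub_eq_zero.1 (by simpa using h8)
    exact hne (by rw [h9, h10])
  rw [hwr]
  simp only [Prod.fst_add, Prod.snd_add, Prod.smul_fst, Prod.smul_snd, inner_add_left,
    real_inner_smul_left]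
  have i3 : ‖r.1‖ * ‖α‖ ≤ s / 4 * (t * (‖α‖ + ‖β‖)) * ‖α‖ := by gcongr
  have i4 : ‖r.2‖ * ‖β‖ ≤ s / 4 * (t * (‖α‖ + ‖β‖)) * ‖β‖ := by gcongr
  have i5 : (‖α‖ + ‖β‖) ^ 2 ≤ 2 * (‖α‖ ^ 2 + ‖β‖ ^ 2) := by nlinarith [sq_nonneg (‖α‖ - ‖β‖)]
  have i6 : t * (s * (‖α‖ ^ 2 + ‖β‖ ^ 2)) ≤
      t * (⟪(N' (α, β, 0)).1, α⟫ + ⟪(N' (α, β, 0)).2, β⟫) := mul_le_mul_of_nonneg_left hq' ht.1.le
  have i7 : 0 < t * s := mul_pos ht.1 hs
  have i8 : t * s * (‖α‖ + ‖β‖) ^ 2 ≤ t * s * (2 * (‖α‖ ^ 2 + ‖β‖ ^ 2)) := by gcongr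
  have i9 : 0 < t * s * (‖α‖ ^ 2 + ‖β‖ ^ 2) := mul_pos i7 hpos
  nlinarith

end Crest.Agent.R130
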