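import Mathlib
import Crest.Agent.R130.Local

/-!
Packaging of the local sheet.
-/

namespace Crest.Agent.R130

open Set Filter Topology
open scoped RealInnerProductSpace ContDiff

variable {E : Type*} [NormedAddCommGroup E] [InnerProductSpace ℝ E]

/-- The potential on the central piece. -/
noncomputable def uA (s : ℝ) (a : E) : ℝ := 2 - 2 * s * ‖a‖ ^ 2

/-- An outer piece: centre `p`, map `T` from the central piece, its inverse `S`, potential `u`. -/
structure IsLeaf (s : ℝ) (p : E) (T S : E → E) (u : E → ℝ) : Prop where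
  T0 : T 0 = p
  u0 : u p = 2 ^ (-s) / 2
  evA : ∀ᶠ a in 𝓝 (0 : E), ContinuousAt T a ∧ S (T a) = a
  evP : ∀ᶠ y in 𝓝 p, ContDiffAt ℝ ∞ S y ∧ (fderiv ℝ S y).det ≠ 0 ∧ T (S y) = y ∧ ContinuousAt u y

variable [FiniteDimensional ℝ E]

lemma isLeaf_of {s : ℝ} {p : E} {T S : E → E} {u : E → ℝ} (hT : ContDiffAt ℝ ω T 0)
    (hS : ContDiffAt ℝ ω S p) (hT0 : T 0 = p) (hS0 : S p = 0) (hu0 : u p = 2 ^ (-s) / 2)
    (h1 : ∀ᶠ a in 𝓝 (0 : E), S (T a) = a) (h2 : ∀ᶠ y in 𝓝 p, T (S y) = y)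
    (h3 : ∀ᶠ y in 𝓝 p, ContinuousAt u y) : IsLeaf s p T S u := by
  refine ⟨hT0, hu0, ?_, ?_⟩
  · filter_upwards [hT.eventually (by simp), h1] with a ha ha'
    exact ⟨ha.continuousAt, ha'⟩
  · have hdet : (fderiv ℝ S p).det ≠ 0 := by
      have d1 : HasFDerivAt T (fderiv ℝ T 0) (S p) := by
        rw [hS0]; exact (hT.differentiableAt (by simp)).hasFDerivAt
      have d2 := d1.comp p (hS.differentiableAt (by simp)).hasFDerivAt
      have d3 : HasFDerivAt (T ∘ S) (ContinuousLinearMap.id ℝ E) p :=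
        (hasFDerivAt_id p).congr_of_eventuallyEq h2
      have d4 := d2.unique d3
      intro h0
      have d5 : ((fderiv ℝ T 0).comp (fderiv ℝ S p)).det = 0 := by
        have : LinearMap.det (((fderiv ℝ T 0 : E →L[ℝ] E) : E →ₗ[ℝ] E).comp
          ((fderiv ℝ S p : E →L[ℝ] E) : E →ₗ[ℝ] E)) = 0 := by
          rw [LinearMap.det_comp]
          have h0' : LinearMap.det ((fderiv ℝ S p : E →L[ℝ] E) : E →ₗ[ℝ] E) = 0 := h0
          rw [h0', mul_zero]
        exact this
      rw [d4] at d5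
      have : LinearMap.det (LinearMap.id : E →ₗ[ℝ] E) = 0 := d5
      simp at this
    have hc : ContinuousAt (fun y => (fderiv ℝ S y).det) p :=
      ContinuousLinearMap.continuous_det.continuousAt.comp (hS.continuousAt_fderiv (by simp))
    filter_upwards [hS.eventually (by simp), hc.eventually_ne hdet, h2, h3] with y a1 a2 a3 a4
    exact ⟨a1.of_le le_top, a2, a3, a4⟩

theorem exists_sheet {s : ℝ} (hs : 0 < s) {e : E} (he : ‖e‖ = 1) :
    ∃ (B SB C SC : E → E) (uB uC : E → ℝ), IsLeaf s (-e) B SB uB ∧ IsLeaf s e C SC uC ∧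
      (∀ᶠ a in 𝓝 (0 : E), cR s (a, B a, C a) = uA s a + uB (B a) + uC (C a)) ∧
      ∀ᶠ p : E × E × E in 𝓝 (0, -e, e), uA s p.1 + uB p.2.1 + uC p.2.2 ≤ cR s p ∧
        (cR s p ≤ uA s p.1 + uB p.2.1 + uC p.2.2 → p.2.1 = B p.1 ∧ p.2.2 = C p.1) := by
  obtain ⟨N', hN', hN'e⟩ := exists_deriv_NN s he
  obtain ⟨hκ0, hκ1⟩ := kappa_bounds hs
  have he0 : e ≠ 0 := by rintro rfl; simp at he
  have hdim : Module.finrank ℝ (E × E × E) = Module.finrank ℝ ((E × E) × E) := by
    simp only [Module.finrank_prod]; ring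
  have hquad := quad_ge hs e
  set κ := (2 : ℝ) ^ (-s - 2) with hκ
  obtain ⟨Γ₁, c₁, b₁, r₁, l₁⟩ := local_param (NN s e) (ContinuousLinearMap.fst ℝ E (E × E))
    (0, -e, e) (contDiffAt_NN s he) N' hN' (by
      rintro ⟨α, β, γ⟩ h1 h2
      have hα : α = 0 := h2
      subst hα
      rw [hN'e, Prod.mk_eq_zero] at h1
      obtain ⟨h3, h4⟩ := h1
      have h5 : β + γ = 0 := by
        refine eq_zero_of_Jl (s := s) he (x := -s) (y := 0) (by nlinarith) (by linarith) ?_
        rw [← h3]; simp only [zero_sub, map_neg, map_add]; module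
      have h6 : γ = -β := eq_neg_of_add_eq_zero_right h5
      subst h6
      have h7 : β = 0 := by
        refine eq_zero_of_Jl (s := s) he (x := s * (1 + 2 * κ)) (y := 4 * s) (by positivity)
          (by nlinarith) ?_
        rw [← h4]; simp only [zero_sub, map_neg, map_sub]; module
      subst h7
      simp) hdim
  obtain ⟨Γ₂, c₂, b₂, r₂, l₂⟩ := local_param (NN s e)
    ((ContinuousLinearMap.fst ℝ E E).comp (ContinuousLinearMap.snd ℝ E (E × E)))
    (0, -e, e) (contDiffAt_NN s he) N' hN' (by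
      rintro ⟨α, β, γ⟩ h1 h2
      have hβ : β = 0 := h2
      subst hβ
      rw [hN'e, Prod.mk_eq_zero] at h1
      obtain ⟨h3, h4⟩ := h1
      have h5 : α + κ • γ = 0 := by
        refine eq_zero_of_Jl (s := s) he (x := -s) (y := 0) (by nlinarith) (by linarith) ?_
        rw [← h4]; simp only [zero_sub, sub_zero, map_neg, map_add, map_smul]; module
      have h6 : α = -(κ • γ) := eq_neg_of_add_eq_zero_left h5
      subst h6
      have h7 : γ = 0 := by
        refine eq_zero_of_Jl (s := s) he (x := -(s * (1 + 2 * κ))) (y := -(4 * s * κ)) ?_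
          (by nlinarith) ?_
        · have : 0 < s * (1 + 2 * κ) * (s + 1) + 4 * s * κ := by positivity
          linarith
        · rw [← h3]; simp only [sub_zero, map_neg, map_sub, map_smul]; module
      subst h7
      simp) hdim
  obtain ⟨Γ₃, c₃, b₃, r₃, l₃⟩ := local_param (NN s e)
    ((ContinuousLinearMap.snd ℝ E E).comp (ContinuousLinearMap.snd ℝ E (E × E)))
    (0, -e, e) (contDiffAt_NN s he) N' hN' (by
      rintro ⟨α, β, γ⟩ h1 h2
      have hγ : γ = 0 := h2
      subst hγ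
      rw [hN'e, Prod.mk_eq_zero] at h1
      obtain ⟨h3, h4⟩ := h1
      have h5 := hquad α β
      rw [h3, h4, inner_zero_left, inner_zero_left, add_zero] at h5
      have h6 : ‖α‖ ^ 2 + ‖β‖ ^ 2 ≤ 0 := by
        by_contra hcon
        have := mul_pos hs (not_le.1 hcon)
        linarith
      have h7 : ‖α‖ ^ 2 = 0 := by nlinarith [sq_nonneg ‖α‖, sq_nonneg ‖β‖]
      have h8 : ‖β‖ ^ 2 = 0 := by nlinarith [sq_nonneg ‖α‖, sq_nonneg ‖β‖]
      have h9 : α = 0 := by simpa using h7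
      have h10 : β = 0 := by simpa using h8
      simp [h9, h10]) hdim
  simp only [ContinuousLinearMap.coe_fst', ContinuousLinearMap.comp_apply,
    ContinuousLinearMap.coe_snd', NN_base] at c₁ b₁ r₁ l₁ c₂ b₂ r₂ l₂ c₃ b₃ r₃ l₃
  have t₁ : Tendsto Γ₁ (𝓝 0) (𝓝 (0, -e, e)) := by
    have := c₁.continuousAt.tendsto; rwa [b₁] at this
  have t₂ : Tendsto Γ₂ (𝓝 (-e)) (𝓝 (0, -e, e)) := by
    have := c₂.continuousAt.tendsto; rwa [b₂] at this
  have t₃ : Tendsto Γ₃ (𝓝 e) (𝓝 (0, -e, e)) := by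
    have := c₃.continuousAt.tendsto; rwa [b₃] at this
  set kB : ℝ := 2 ^ (-s) / 2 + ⟪vv s e, e⟫ with hkB
  have hGc : ∀ᶠ p : E × E × E in 𝓝 (0, -e, e), ContinuousAt (GG s e) p := by
    have h2 : ∀ᶠ p : E × E × E in 𝓝 (0, -e, e),
        p.1 - p.2.1 ≠ 0 ∧ p.1 - p.2.2 ≠ 0 ∧ p.2.1 - p.2.2 ≠ 0 := by
      refine Eventually.and ?_ (Eventually.and ?_ ?_)
      · exact ContinuousAt.eventually_ne (by fun_prop) (by simpa using he0)
      · exact ContinuousAt.eventually_ne (by fun_prop) (by simpa using he0)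
      · refine ContinuousAt.eventually_ne (by fun_prop) ?_
        have h2 : -e - e = (-2 : ℝ) • e := by rw [neg_smul, two_smul]; abel
        simp only [h2]
        exact smul_ne_zero (by norm_num) he0
    filter_upwards [h2] with p hp
    unfold GG cR
    have a1 : ContinuousAt (fun p : E × E × E => phi s (p.1 - p.2.1)) p :=
      ContinuousAt.comp (g := phi s) (continuousAt_phi s hp.1) (by fun_prop)
    have a2 : ContinuousAt (fun p : E × E × E => phi s (p.1 - p.2.2)) p :=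
      ContinuousAt.comp (g := phi s) (continuousAt_phi s hp.2.1) (by fun_prop)
    have a3 : ContinuousAt (fun p : E × E × E => phi s (p.2.1 - p.2.2)) p :=
      ContinuousAt.comp (g := phi s) (continuousAt_phi s hp.2.2) (by fun_prop)
    exact ((((a1.add a2).add a3).add (by fun_prop)).add (by fun_prop)).sub (by fun_prop)
  have hsum : ∀ p : E × E × E, cR s p - (uA s p.1 + (⟪vv s e, p.2.1⟫ - 2 * s * ‖p.2.1 + e‖ ^ 2 + kB)
      + (GG s e (Γ₃ p.2.2) - 2 - kB)) = GG s e p - GG s e (Γ₃ p.2.2) := by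
    intro p
    simp only [uA]
    rw [show GG s e p = cR s p + 2 * s * ‖p.1‖ ^ 2 + 2 * s * ‖p.2.1 + e‖ ^ 2 - ⟪vv s e, p.2.1⟫
      from rfl]
    ring
  refine ⟨fun a => (Γ₁ a).2.1, fun y => (Γ₂ y).1, fun a => (Γ₁ a).2.2, fun y => (Γ₃ y).1,
    fun b => ⟪vv s e, b⟫ - 2 * s * ‖b + e‖ ^ 2 + kB, fun c => GG s e (Γ₃ c) - 2 - kB,
    ?_, ?_, ?_, ?_⟩
  · refine isLeaf_of c₁.snd.fst c₂.fst (by simp [b₁]) (by simp [b₂]) ?_ ?_ ?_ ?_
    · simp [hkB]
    · filter_upwards [r₁, t₁.eventually l₂] with a h1 h2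
      rw [h2 h1.1, h1.2]
    · filter_upwards [r₂, t₂.eventually l₁] with y h1 h2
      rw [h2 h1.1, h1.2]
    · exact Eventually.of_forall fun y => by fun_prop
  · refine isLeaf_of c₁.snd.snd c₃.fst (by simp [b₁]) (by simp [b₃]) ?_ ?_ ?_ ?_
    · have h2 : -e - e = (-2 : ℝ) • e := by rw [neg_smul, two_smul]; abel
      simp only [b₃, GG, cR, phi, hkB, h2, zero_sub, neg_neg, norm_neg, he, norm_smul,
        Real.one_rpow, norm_zero, neg_add_cancel, inner_neg_right]
      norm_num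
      ring
    · filter_upwards [r₁, t₁.eventually l₃] with a h1 h2
      rw [h2 h1.1, h1.2]
    · filter_upwards [r₃, t₃.eventually l₁] with y h1 h2
      rw [h2 h1.1, h1.2]
    · filter_upwards [c₃.eventually (by simp), t₃.eventually hGc] with y h1 h2
      exact ((h2.comp h1.continuousAt).sub continuousAt_const).sub continuousAt_const
  · filter_upwards [r₁, t₁.eventually l₃] with a h1 h2
    have h3 := hsum (Γ₁ a)
    rw [h2 h1.1, sub_self, sub_eq_zero, h1.2] at h3
    have h4 : ((a, (Γ₁ a).2.1, (Γ₁ a).2.2) : E × E × E) = Γ₁ a := by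
      conv_rhs => rw [← Prod.mk.eta (p := Γ₁ a), h1.2]
    rw [h4, h3, h2 h1.1]
  · obtain ⟨δ, hδ, hmin⟩ := exists_strict_min hs he
    have t₄ : Tendsto (fun p : E × E × E => p.2.2) (𝓝 (0, -e, e)) (𝓝 e) :=
      (continuous_snd.comp continuous_snd).tendsto _
    filter_upwards [Metric.ball_mem_nhds _ hδ,
      (t₃.comp t₄).eventually (Metric.ball_mem_nhds _ hδ), t₄.eventually r₃, l₁] with p h1 h2 h3 h4
    have h5 := hsum p
    by_cases hp : p = Γ₃ p.2.2
    · have h6 : GG s e p = GG s e (Γ₃ p.2.2) := by rw [← hp]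
      refine ⟨by linarith, fun _ => ?_⟩
      have h7 : NN s e p = 0 := by rw [hp]; exact h3.1
      rw [h4 h7]
      exact ⟨rfl, rfl⟩
    · have h6 := hmin p h1 _ h2 h3.1 h3.2 hp
      simp only [Function.comp] at h6
      exact ⟨by linarith, fun h => absurd h (by linarith)⟩

end Crest.Agent.R130
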