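import Mathlib
import Crest.Prelude.Def_MultiMarginal

/-!
Transport of atomless measures, and approximation of a separated three-marginal plan by maps.
-/

namespace Crest.Agent.R130

open MeasureTheory Set Filter Topology ProbabilityTheory Crest.AnalysisR.OT
open scoped ENNReal unitInterval

lemma measure_cdf_le (m : Measure ℝ) [IsProbabilityMeasure m] [NullSingletonClass m]
    (t : ℝ) (ht0 : 0 ≤ t) (ht1 : t ≤ 1) : m {x | cdf m x ≤ t} = ENNReal.ofReal t := by
  rcases ht1.eq_or_lt with rfl | ht1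
  · have : {x | cdf m x ≤ 1} = univ := eq_univ_of_forall fun x => cdf_le_one m x
    simp [this]
  set S := {x | cdf m x ≤ t} with hS
  rcases S.eq_empty_or_nonempty with h | h
  · have h1 : t ≤ 0 := by
      refine ge_of_tendsto' (tendsto_cdf_atBot m) fun x => ?_
      have : x ∉ S := by rw [h]; simp
      exact le_of_lt (not_le.1 this)
    have : t = 0 := le_antisymm h1 ht0
    rw [h, this]; simp
  have hb : BddAbove S := by
    obtain ⟨b, hb⟩ := ((tendsto_cdf_atTop m).eventually (eventually_gt_nhds ht1)).exists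
    refine ⟨b, fun x hx => ?_⟩
    by_contra hxb
    have := monotone_cdf m (le_of_lt (not_le.1 hxb))
    have hx' : cdf m x ≤ t := hx
    linarith
  set q := sSup S with hq
  have h1 : Iio q ⊆ S := by
    intro x hx
    obtain ⟨y, hy, hxy⟩ := exists_lt_of_lt_csSup h hx
    exact (monotone_cdf m hxy.le).trans hy
  have h2 : S ⊆ Iic q := fun x hx => le_csSup hb hx
  have h3 : m S = m (Iic q) := by
    refine le_antisymm (measure_mono h2) ?_
    rw [← measure_congr (Iio_ae_eq_Iic (μ := m) (a := q))]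
    exact measure_mono h1
  have h4 : t ≤ cdf m q := by
    have hc : Tendsto (cdf m) (𝓝[>] q) (𝓝 (cdf m q)) :=
      ((cdf m).right_continuous q).tendsto.mono_left (nhdsWithin_mono _ Ioi_subset_Ici_self)
    refine ge_of_tendsto hc ?_
    filter_upwards [self_mem_nhdsWithin] with x hx
    by_contra hcon
    have h6 : x ≤ q := h2 (le_of_lt (not_le.1 hcon))
    exact absurd h6 (not_le.2 hx)
  have h5 : cdf m q ≤ t := by
    have e1 := (cdf m).measure_singleton q
    rw [measure_cdf, measure_singleton] at e1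
    have e2 : cdf m q ≤ Function.leftLim (cdf m) q := by
      have := ENNReal.ofReal_eq_zero.1 e1.symm
      linarith
    refine e2.trans (le_of_tendsto ((monotone_cdf m).tendsto_leftLim q) ?_)
    filter_upwards [self_mem_nhdsWithin] with x hx using h1 hx
  rw [h3, ← ofReal_cdf, le_antisymm h5 h4]

lemma exists_map_unit {X : Type*} [MeasurableSpace X] [StandardBorelSpace X] (m : Measure X)
    [IsProbabilityMeasure m] [NullSingletonClass m] :
    ∃ V : X → I, Measurable V ∧ m.map V = volume := by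
  have he := measurableEmbedding_embeddingReal X
  set m' := m.map (embeddingReal X) with hm'
  have : IsProbabilityMeasure m' := Measure.isProbabilityMeasure_map he.measurable.aemeasurable
  have : NullSingletonClass m' := by
    constructor
    intro x
    rw [hm', he.map_apply]
    exact (Set.subsingleton_singleton.preimage he.injective).measure_zero _
  have hV : Measurable fun x : X =>
      (⟨cdf m' (embeddingReal X x), cdf_nonneg m' _, cdf_le_one m' _⟩ : I) :=
    Measurable.subtype_mk ((monotone_cdf m').measurable.comp he.measurable)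
  refine ⟨_, hV, ?_⟩
  have := Measure.isProbabilityMeasure_map (μ := m) hV.aemeasurable
  refine Measure.ext_of_Iic _ _ fun t => ?_
  rw [Measure.map_apply hV measurableSet_Iic, unitInterval.volume_Iic,
    ← measure_cdf_le m' t t.2.1 t.2.2, hm', he.map_apply]
  rfl

lemma exists_map_eq {X Y : Type*} [MeasurableSpace X] [StandardBorelSpace X]
    [MeasurableSpace Y] [StandardBorelSpace Y] [Nonempty Y] (m : Measure X) (ν : Measure Y)
    [IsFiniteMeasure m] [NullSingletonClass m] (h : ν univ = m univ) :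
    ∃ T : X → Y, Measurable T ∧ m.map T = ν := by
  by_cases h0 : m univ = 0
  · refine ⟨fun _ => Classical.arbitrary Y, measurable_const, ?_⟩
    rw [Measure.measure_univ_eq_zero.1 h0, Measure.measure_univ_eq_zero.1 (h.trans h0)]
    simp
  have hne : m univ ≠ ∞ := measure_ne_top _ _
  have : IsProbabilityMeasure ((m univ)⁻¹ • m) := by
    constructor
    simp [ENNReal.inv_mul_cancel h0 hne]
  have : IsProbabilityMeasure ((m univ)⁻¹ • ν) := by
    constructor
    simp [h, ENNReal.inv_mul_cancel h0 hne]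
  have : NullSingletonClass ((m univ)⁻¹ • m) := by
    constructor
    intro x
    simp
  obtain ⟨V, hV, hVm⟩ := exists_map_unit ((m univ)⁻¹ • m)
  obtain ⟨f, hf, hfm⟩ := Measure.exists_measurable_map_eq ((m univ)⁻¹ • ν)
  refine ⟨f ∘ V, hf.comp hV, ?_⟩
  have h1 : ((m univ)⁻¹ • m).map (f ∘ V) = (m univ)⁻¹ • ν := by
    rw [← Measure.map_map hf hV, hVm, hfm]
  rw [Measure.map_smul] at h1
  have h2 := congrArg (fun μ : Measure Y => (m univ) • μ) h1
  simpa only [smul_smul, ENNReal.mul_inv_cancel h0 hne, one_smul] using h2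

section Cost

variable {E : Type*} [NormedAddCommGroup E]

lemma continuous_pairCost (s : ℝ) : Continuous fun p : E × E => pairCost s p.1 p.2 := by
  unfold pairCost
  exact ENNReal.continuous_rpow_const.comp (ENNReal.continuous_ofReal.comp (by fun_prop))

lemma continuous_tripleCost (s : ℝ) : Continuous fun p : E × E × E => tripleCost s p := by
  unfold tripleCost
  refine Continuous.add (Continuous.add ?_ ?_) ?_
  · exact (continuous_pairCost s).comp (f := fun p : E × E × E => (p.1, p.2.1)) (by fun_prop)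
  · exact (continuous_pairCost s).comp (f := fun p : E × E × E => (p.1, p.2.2)) (by fun_prop)
  · exact (continuous_pairCost s).comp (f := fun p : E × E × E => (p.2.1, p.2.2)) (by fun_prop)

lemma pairCost_comm (s : ℝ) (x y : E) : pairCost s x y = pairCost s y x := by
  unfold pairCost
  rw [norm_sub_rev]

lemma pairCost_le_mul {s : ℝ} (hs : 0 < s) {θ : ℝ} (hθ : 0 < θ) {x x' y : E}
    (h : θ * ‖x' - y‖ ≤ ‖x - y‖) :
    pairCost s x y ≤ ENNReal.ofReal θ ^ (-s) * pairCost s x' y := by
  unfold pairCost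
  rw [← ENNReal.mul_rpow_of_ne_top ENNReal.ofReal_ne_top ENNReal.ofReal_ne_top,
    ← ENNReal.ofReal_mul hθ.le, ENNReal.rpow_neg, ENNReal.rpow_neg]
  exact ENNReal.inv_le_inv.2 (ENNReal.rpow_le_rpow (ENNReal.ofReal_le_ofReal h) hs.le)

lemma tripleCost_le_mul {s : ℝ} (hs : 0 < s) {η : ℝ} (hη : 0 ≤ η) (hη1 : η < 1 / 8) {x x' y z : E}
    (hx : ‖x - x'‖ ≤ η) (hy : 1 / 4 ≤ ‖x' - y‖) (hz : 1 / 4 ≤ ‖x' - z‖) :
    tripleCost s (x, y, z) ≤ ENNReal.ofReal (1 - 4 * η) ^ (-s) * tripleCost s (x', y, z) := by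
  have hθ : 0 < 1 - 4 * η := by linarith
  have key : ∀ w : E, 1 / 4 ≤ ‖x' - w‖ → (1 - 4 * η) * ‖x' - w‖ ≤ ‖x - w‖ := by
    intro w hw
    have h1 : ‖x' - w‖ ≤ ‖x' - x‖ + ‖x - w‖ := norm_sub_le_norm_sub_add_norm_sub _ _ _
    rw [norm_sub_rev x' x] at h1
    nlinarith
  unfold tripleCost
  simp only [mul_add]
  refine add_le_add (add_le_add (pairCost_le_mul hs hθ (key y hy))
    (pairCost_le_mul hs hθ (key z hz))) ?_
  refine pairCost_le_mul hs hθ ?_
  have := norm_nonneg (y - z)
  nlinarith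

end Cost

/-- Approximation of a separated plan by a map. -/
theorem exists_approx {E : Type*} [NormedAddCommGroup E] [MeasurableSpace E] [BorelSpace E]
    [PolishSpace E] {s : ℝ} (hs : 0 < s) (μ : Measure E) [IsFiniteMeasure μ]
    [NullSingletonClass μ] (π : Measure (E × E × E)) (hπ : IsCoupling₃ μ π)
    (hsep : ∀ᵐ p ∂π, 1 / 2 ≤ ‖p.1 - p.2.1‖ ∧ 1 / 2 ≤ ‖p.1 - p.2.2‖)
    (hfin : ∫⁻ p, tripleCost s p ∂π < ⊤) (ε : ℝ≥0∞) (hε : 0 < ε) :
    ∃ T₂ T₃ : E → E, Measurable T₂ ∧ Measurable T₃ ∧ μ.map T₂ = μ ∧ μ.map T₃ = μ ∧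
      ∫⁻ x, tripleCost s (x, T₂ x, T₃ x) ∂μ < ∫⁻ p, tripleCost s p ∂π + ε := by
  classical
  have hc : Measurable fun p : E × E × E => tripleCost s p := (continuous_tripleCost s).measurable
  -- choice of the mesh
  obtain ⟨η, hη0, hη1, hηε⟩ : ∃ η : ℝ, 0 < η ∧ η < 1 / 8 ∧
      (ENNReal.ofReal (1 - 4 * η) ^ (-s) * ENNReal.ofReal (1 - 4 * η) ^ (-s)) *
        ∫⁻ p, tripleCost s p ∂π < ∫⁻ p, tripleCost s p ∂π + ε := by
    have h1 : Tendsto (fun η : ℝ => ENNReal.ofReal (1 - 4 * η) ^ (-s)) (𝓝 0) (𝓝 1) := by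
      have : Continuous fun η : ℝ => ENNReal.ofReal (1 - 4 * η) ^ (-s) :=
        ENNReal.continuous_rpow_const.comp (ENNReal.continuous_ofReal.comp (by fun_prop))
      simpa using this.tendsto 0
    have h2 := ENNReal.Tendsto.mul h1 (Or.inl one_ne_zero) h1 (Or.inl one_ne_zero)
    have h3 := ENNReal.Tendsto.mul_const h2 (b := ∫⁻ p, tripleCost s p ∂π) (Or.inr hfin.ne)
    rw [one_mul, one_mul] at h3
    have h4 := h3.eventually (eventually_lt_nhds (ENNReal.lt_add_right hfin.ne hε.ne'))
    have h5 : ∀ᶠ η : ℝ in 𝓝 0, η < 1 / 8 := eventually_lt_nhds (by norm_num)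
    obtain ⟨η, ⟨h6, h7⟩, h8⟩ := (((h4.and h5).filter_mono nhdsWithin_le_nhds).and
      (self_mem_nhdsWithin (s := Ioi (0 : ℝ)))).exists
    exact ⟨η, h8, h7, h6⟩
  set Λ := ENNReal.ofReal (1 - 4 * η) ^ (-s) with hΛ
  obtain ⟨u, hu⟩ : ∃ u : ℕ → E, DenseRange u := TopologicalSpace.exists_dense_seq E
  have hex : ∀ x : E, ∃ n, x ∈ Metric.ball (u n) η := fun x => by
    obtain ⟨n, hn⟩ := hu.exists_dist_lt x hη0
    exact ⟨n, hn⟩
  have hn : Measurable fun x => Nat.find (hex x) :=
    measurable_find hex fun n => Metric.isOpen_ball.measurableSet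
  set Q : ℕ → Set E := fun n => (fun x => Nat.find (hex x)) ⁻¹' {n} with hQ
  have hQm : ∀ n, MeasurableSet (Q n) := fun n => hn (measurableSet_singleton n)
  have hQd : Pairwise (Function.onFun Disjoint Q) := fun i j hij =>
    Disjoint.preimage _ (disjoint_singleton.2 hij)
  have hQu : ⋃ n, Q n = univ := eq_univ_of_forall fun x => mem_iUnion.2 ⟨_, rfl⟩
  have hQb : ∀ n, ∀ x ∈ Q n, ‖x - u n‖ ≤ η := by
    intro n x hx
    have h1 : Nat.find (hex x) = n := hx
    have h2 := Nat.find_spec (hex x)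
    rw [h1, Metric.mem_ball, dist_eq_norm] at h2
    exact h2.le
  have hQm' : ∀ n, MeasurableSet (Prod.fst ⁻¹' Q n : Set (E × E × E)) := fun n =>
    measurable_fst (hQm n)
  have hmass : ∀ n, ((π.restrict (Prod.fst ⁻¹' Q n)).map Prod.snd) univ = (μ.restrict (Q n)) univ := by
    intro n
    rw [Measure.map_apply measurable_snd MeasurableSet.univ, preimage_univ,
      Measure.restrict_apply_univ, Measure.restrict_apply_univ, ← hπ.1,
      Measure.map_apply measurable_fst (hQm n)]
  choose T hTm hT using fun n => exists_map_eq (μ.restrict (Q n))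
    ((π.restrict (Prod.fst ⁻¹' Q n)).map Prod.snd) (hmass n)
  set TT : E → E × E := fun x => T (Nat.find (hex x)) x with hTT
  have hTTm : Measurable TT := Measurable.find hTm (fun n => Metric.isOpen_ball.measurableSet) hex
  have hTTQ : ∀ n, ∀ x ∈ Q n, TT x = T n x := by
    intro n x hx
    have h1 : Nat.find (hex x) = n := hx
    simp only [hTT, h1]
  have hQd' : Pairwise (Function.onFun Disjoint fun n => (Prod.fst ⁻¹' Q n : Set (E × E × E))) :=
    fun i j hij => Disjoint.preimage _ (hQd hij)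
  have hQu' : ⋃ n, (Prod.fst ⁻¹' Q n : Set (E × E × E)) = univ := by
    rw [← preimage_iUnion, hQu, preimage_univ]
  have hmap : μ.map TT = π.map Prod.snd := by
    refine Measure.ext_of_lintegral _ fun f hf => ?_
    rw [lintegral_map hf hTTm, lintegral_map hf measurable_snd,
      ← setLIntegral_univ (μ := μ), ← hQu, lintegral_iUnion hQm hQd,
      ← setLIntegral_univ (μ := π), ← hQu', lintegral_iUnion hQm' hQd']
    congr 1
    funext n
    rw [← lintegral_map hf measurable_snd, ← hT n, lintegral_map hf (hTm n)]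
    exact setLIntegral_congr_fun (hQm n) fun x hx => by rw [hTTQ n x hx]
  refine ⟨fun x => (TT x).1, fun x => (TT x).2, measurable_fst.comp hTTm,
    measurable_snd.comp hTTm, ?_, ?_, ?_⟩
  · have := congrArg (Measure.map Prod.fst) hmap
    rw [Measure.map_map measurable_fst hTTm, Measure.map_map measurable_fst measurable_snd] at this
    exact this.trans hπ.2.1
  · have := congrArg (Measure.map Prod.snd) hmap
    rw [Measure.map_map measurable_snd hTTm, Measure.map_map measurable_snd measurable_snd] at this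
    exact this.trans hπ.2.2
  refine lt_of_le_of_lt ?_ hηε
  rw [← setLIntegral_univ (μ := μ), ← hQu, lintegral_iUnion hQm hQd,
    ← lintegral_const_mul _ hc, ← setLIntegral_univ (μ := π), ← hQu',
    lintegral_iUnion hQm' hQd']
  refine ENNReal.tsum_le_tsum fun n => ?_
  have hcn : Measurable fun w : E × E => Λ * tripleCost s (u n, w) :=
    (hc.comp measurable_prodMk_left).const_mul _
  have hK : MeasurableSet {w : E × E | 1 / 4 ≤ ‖u n - w.1‖ ∧ 1 / 4 ≤ ‖u n - w.2‖} :=
    (measurableSet_le measurable_const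
      (show Measurable fun w : E × E => ‖u n - w.1‖ by fun_prop)).inter
      (measurableSet_le measurable_const (show Measurable fun w : E × E => ‖u n - w.2‖ by fun_prop))
  have hae : ∀ᵐ p ∂(π.restrict (Prod.fst ⁻¹' Q n)), ‖p.1 - u n‖ ≤ η ∧
      1 / 2 ≤ ‖p.1 - p.2.1‖ ∧ 1 / 2 ≤ ‖p.1 - p.2.2‖ := by
    filter_upwards [ae_restrict_mem (hQm' n), ae_restrict_of_ae hsep] with p h1 h2
    exact ⟨hQb n _ h1, h2⟩
  have hae2 : ∀ᵐ w ∂((π.restrict (Prod.fst ⁻¹' Q n)).map Prod.snd),
      1 / 4 ≤ ‖u n - w.1‖ ∧ 1 / 4 ≤ ‖u n - w.2‖ := by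
    rw [ae_map_iff measurable_snd.aemeasurable hK]
    filter_upwards [hae] with p hp
    have h1 : ‖p.1 - p.2.1‖ ≤ ‖p.1 - u n‖ + ‖u n - p.2.1‖ := norm_sub_le_norm_sub_add_norm_sub _ _ _
    have h2 : ‖p.1 - p.2.2‖ ≤ ‖p.1 - u n‖ + ‖u n - p.2.2‖ := norm_sub_le_norm_sub_add_norm_sub _ _ _
    constructor <;> linarith [hp.1, hp.2.1, hp.2.2]
  rw [← hT n, ae_map_iff (hTm n).aemeasurable hK] at hae2
  calc ∫⁻ x in Q n, tripleCost s (x, (TT x).1, (TT x).2) ∂μ
      ≤ ∫⁻ x in Q n, Λ * tripleCost s (u n, T n x) ∂μ := by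
        refine lintegral_mono_ae ?_
        filter_upwards [hae2, ae_restrict_mem (hQm n)] with x h1 h2
        rw [hTTQ n x h2]
        exact tripleCost_le_mul hs hη0.le hη1 (hQb n x h2) h1.1 h1.2
    _ = ∫⁻ p in Prod.fst ⁻¹' Q n, Λ * tripleCost s (u n, p.2) ∂π := by
        rw [← lintegral_map hcn (hTm n), hT n, lintegral_map hcn measurable_snd]
    _ ≤ _ := by
        refine lintegral_mono_ae ?_
        filter_upwards [hae] with p hp
        rw [mul_assoc]
        gcongr
        exact tripleCost_le_mul hs hη0.le hη1 (x := u n) (x' := p.1) (y := p.2.1) (z := p.2.2)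
          (by rw [norm_sub_rev]; exact hp.1) (by linarith [hp.2.1]) (by linarith [hp.2.2])

end Crest.Agent.R130
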