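import Mathlib
import Crest.Agent.R130.Sheet
import Crest.Agent.R130.Push
import Crest.Agent.R130.Transport

/-!
The five pieces and the global potential inequality.
-/

namespace Crest.Agent.R130

open MeasureTheory Set Filter Topology Crest.AnalysisR.OT Metric
open scoped RealInnerProductSpace ContDiff ENNReal

variable {E : Type*} [NormedAddCommGroup E] [InnerProductSpace ℝ E]

lemma pairCost_eq (s : ℝ) {x y : E} (h : x - y ≠ 0) :
    pairCost s x y = ENNReal.ofReal (phi s (x - y)) := by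
  unfold pairCost phi
  rw [ENNReal.ofReal_rpow_of_pos (norm_pos_iff.2 h)]

lemma phi_nonneg (s : ℝ) (z : E) : 0 ≤ phi s z := Real.rpow_nonneg (norm_nonneg _) _

lemma tripleCost_eq (s : ℝ) {p : E × E × E} (h1 : p.1 - p.2.1 ≠ 0) (h2 : p.1 - p.2.2 ≠ 0)
    (h3 : p.2.1 - p.2.2 ≠ 0) : tripleCost s p = ENNReal.ofReal (cR s p) := by
  unfold tripleCost cR
  rw [pairCost_eq s h1, pairCost_eq s h2, pairCost_eq s h3,
    ENNReal.ofReal_add (add_nonneg (phi_nonneg _ _) (phi_nonneg _ _)) (phi_nonneg _ _),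
    ENNReal.ofReal_add (phi_nonneg _ _) (phi_nonneg _ _)]

lemma tripleCost_swap12 (s : ℝ) (x y z : E) : tripleCost s (x, y, z) = tripleCost s (y, x, z) := by
  simp only [tripleCost, pairCost_comm s y x]
  ring

lemma tripleCost_swap23 (s : ℝ) (x y z : E) : tripleCost s (x, y, z) = tripleCost s (x, z, y) := by
  simp only [tripleCost, pairCost_comm s z y]
  ring

lemma pairCost_self {s : ℝ} (hs : 0 < s) (x : E) : pairCost s x x = ⊤ := by
  unfold pairCost
  simp [ENNReal.zero_rpow_of_neg (neg_lt_zero.2 hs)]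

lemma pairCost_of_norm_one (s : ℝ) {x y : E} (h : ‖x - y‖ = 1) : pairCost s x y = 1 := by
  unfold pairCost
  simp [h]

lemma pairCost_ge {s : ℝ} (hs : 0 < s) {x y : E} (h : ‖x - y‖ ≤ 2) :
    ENNReal.ofReal (2 ^ (-s)) ≤ pairCost s x y := by
  unfold pairCost
  rw [← ENNReal.ofReal_rpow_of_pos two_pos, ENNReal.rpow_neg, ENNReal.rpow_neg]
  exact ENNReal.inv_le_inv.2 (ENNReal.rpow_le_rpow (ENNReal.ofReal_le_ofReal h) hs.le)

lemma pairCost_gt {s : ℝ} (hs : 0 < s) {x y : E} (h : ‖x - y‖ < 2) :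
    ENNReal.ofReal (2 ^ (-s)) < pairCost s x y := by
  unfold pairCost
  rw [← ENNReal.ofReal_rpow_of_pos two_pos, ENNReal.rpow_neg, ENNReal.rpow_neg]
  exact ENNReal.inv_lt_inv.2 (ENNReal.rpow_lt_rpow
    ((ENNReal.ofReal_lt_ofReal_iff two_pos).2 h) hs)

/-- Indices of the outer pieces. -/
abbrev Idx := Fin 2 × Bool

/-- Centres of the outer pieces. -/
def pt (e : Fin 2 → E) (j : Idx) : E := if j.2 then e j.1 else -e j.1

/-- Centres of all pieces. -/
def cen (e : Fin 2 → E) : Option Idx → E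
  | none => 0
  | some j => pt e j

/-- An ordered triple on a sheet. -/
def G0 (T : Idx → E → E) (i j k : Option Idx) (x y z : E) : Prop :=
  ∃ m : Fin 2, i = none ∧ j = some (m, false) ∧ k = some (m, true) ∧
    y = T (m, false) x ∧ z = T (m, true) x

/-- A triple on a sheet, in any order. -/
def Good (T : Idx → E → E) (i j k : Option Idx) (x y z : E) : Prop :=
  G0 T i j k x y z ∨ G0 T i k j x z y ∨ G0 T j i k y x z ∨ G0 T j k i y z x ∨
    G0 T k i j z x y ∨ G0 T k j i z y x

/-- The potential inequality with its equality case. -/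
def Ineq (s : ℝ) (T : Idx → E → E) (pot : Option Idx → E → ℝ) (i j k : Option Idx)
    (q : E × E × E) : Prop :=
  ENNReal.ofReal (pot i q.1) + ENNReal.ofReal (pot j q.2.1) + ENNReal.ofReal (pot k q.2.2) ≤
      tripleCost s q ∧
    (tripleCost s q ≤ ENNReal.ofReal (pot i q.1) + ENNReal.ofReal (pot j q.2.1) +
      ENNReal.ofReal (pot k q.2.2) → Good T i j k q.1 q.2.1 q.2.2)

lemma Ineq.swap12 {s : ℝ} {T : Idx → E → E} {pot : Option Idx → E → ℝ} {i j k : Option Idx}
    {x y z : E} (h : Ineq s T pot i j k (x, y, z)) : Ineq s T pot j i k (y, x, z) := by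
  unfold Ineq at h ⊢
  simp only at h ⊢
  rw [← tripleCost_swap12, add_comm (ENNReal.ofReal (pot j y))]
  refine ⟨h.1, fun h' => ?_⟩
  have := h.2 h'
  unfold Good at this ⊢
  tauto

lemma Ineq.swap23 {s : ℝ} {T : Idx → E → E} {pot : Option Idx → E → ℝ} {i j k : Option Idx}
    {x y z : E} (h : Ineq s T pot i j k (x, y, z)) : Ineq s T pot i k j (x, z, y) := by
  unfold Ineq at h ⊢
  simp only at h ⊢
  rw [← tripleCost_swap23, add_right_comm]
  refine ⟨h.1, fun h' => ?_⟩
  have := h.2 h'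
  unfold Good at this ⊢
  tauto

lemma ev_swap12 {s : ℝ} {T : Idx → E → E} {pot : Option Idx → E → ℝ} {i j k : Option Idx}
    {a b c : E} (h : ∀ᶠ q in 𝓝 ((a, b, c) : E × E × E), Ineq s T pot i j k q) :
    ∀ᶠ q in 𝓝 ((b, a, c) : E × E × E), Ineq s T pot j i k q := by
  have t : Tendsto (fun q : E × E × E => ((q.2.1, q.1, q.2.2) : E × E × E)) (𝓝 (b, a, c))
      (𝓝 (a, b, c)) := Continuous.tendsto' (by fun_prop) _ _ rfl
  filter_upwards [t.eventually h] with q hq using hq.swap12

lemma ev_swap23 {s : ℝ} {T : Idx → E → E} {pot : Option Idx → E → ℝ} {i j k : Option Idx}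
    {a b c : E} (h : ∀ᶠ q in 𝓝 ((a, b, c) : E × E × E), Ineq s T pot i j k q) :
    ∀ᶠ q in 𝓝 ((a, c, b) : E × E × E), Ineq s T pot i k j q := by
  have t : Tendsto (fun q : E × E × E => ((q.1, q.2.2, q.2.1) : E × E × E)) (𝓝 (a, c, b))
      (𝓝 (a, b, c)) := Continuous.tendsto' (by fun_prop) _ _ rfl
  filter_upwards [t.eventually h] with q hq using hq.swap23

lemma ev_of_lt {s : ℝ} {T : Idx → E → E} {pot : Option Idx → E → ℝ} {i j k : Option Idx}
    {a b c : E} (ha : ContinuousAt (pot i) a) (hb : ContinuousAt (pot j) b)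
    (hc : ContinuousAt (pot k) c)
    (h : ENNReal.ofReal (pot i a) + ENNReal.ofReal (pot j b) + ENNReal.ofReal (pot k c) <
      tripleCost s (a, b, c)) :
    ∀ᶠ q in 𝓝 ((a, b, c) : E × E × E), Ineq s T pot i j k q := by
  have g1 : ContinuousAt (fun q : E × E × E => ENNReal.ofReal (pot i q.1)) (a, b, c) :=
    ContinuousAt.comp (g := fun x => ENNReal.ofReal (pot i x)) (f := fun q : E × E × E => q.1)
      (x := (a, b, c)) (ENNReal.continuous_ofReal.continuousAt.comp ha) (by fun_prop)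
  have g2 : ContinuousAt (fun q : E × E × E => ENNReal.ofReal (pot j q.2.1)) (a, b, c) :=
    ContinuousAt.comp (g := fun x => ENNReal.ofReal (pot j x)) (f := fun q : E × E × E => q.2.1)
      (x := (a, b, c)) (ENNReal.continuous_ofReal.continuousAt.comp hb) (by fun_prop)
  have g3 : ContinuousAt (fun q : E × E × E => ENNReal.ofReal (pot k q.2.2)) (a, b, c) :=
    ContinuousAt.comp (g := fun x => ENNReal.ofReal (pot k x)) (f := fun q : E × E × E => q.2.2)
      (x := (a, b, c)) (ENNReal.continuous_ofReal.continuousAt.comp hc) (by fun_prop)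
  have h1 : Tendsto (fun q : E × E × E => ENNReal.ofReal (pot i q.1) +
      ENNReal.ofReal (pot j q.2.1) + ENNReal.ofReal (pot k q.2.2)) (𝓝 (a, b, c))
      (𝓝 (ENNReal.ofReal (pot i a) + ENNReal.ofReal (pot j b) + ENNReal.ofReal (pot k c))) :=
    (g1.tendsto.add g2.tendsto).add g3.tendsto
  filter_upwards [h1.eventually_lt (continuous_tripleCost s).continuousAt.tendsto h] with q hq
  exact ⟨hq.le, fun h' => absurd h' (not_le.2 hq)⟩

section Geometry

variable {e : Fin 2 → E} (he : ∀ k, ‖e k‖ = 1) (ho : ⟪e 0, e 1⟫ = 0)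
include he

lemma norm_pt (j : Idx) : ‖pt e j‖ = 1 := by
  unfold pt
  split_ifs <;> simp [he]

include ho

lemma inner_pt {j j' : Idx} (h : j.1 ≠ j'.1) : ⟪pt e j, pt e j'⟫ = 0 := by
  have ho' : ⟪e 1, e 0⟫ = 0 := by rw [real_inner_comm]; exact ho
  obtain ⟨m, b⟩ := j
  obtain ⟨m', b'⟩ := j'
  fin_cases m <;> fin_cases m' <;> cases b <;> cases b' <;> simp_all [pt]

lemma norm_pt_sub_lt {j j' : Idx} (h : j.1 ≠ j'.1) : ‖pt e j - pt e j'‖ < 2 := by
  have h1 : ‖pt e j - pt e j'‖ ^ 2 = 2 := by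
    rw [norm_sub_sq_real, inner_pt he ho h, norm_pt he, norm_pt he]; norm_num
  nlinarith [norm_nonneg (pt e j - pt e j')]

lemma one_le_norm_cen_sub {i j : Option Idx} (h : i ≠ j) : 1 ≤ ‖cen e i - cen e j‖ := by
  rcases i with _ | i <;> rcases j with _ | j
  · exact absurd rfl h
  · simp [cen, norm_pt he]
  · simp [cen, norm_pt he]
  · simp only [cen]
    by_cases hm : i.1 = j.1
    · obtain ⟨m, b⟩ := i
      obtain ⟨m', b'⟩ := j
      simp only at hm
      subst hm
      have h2 : ‖e m + e m‖ = 2 := by rw [← two_smul ℝ, norm_smul, he]; simp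
      cases b <;> cases b'
      · exact absurd rfl h
      · simp only [pt, Bool.false_eq_true, if_false, if_true]
        rw [← neg_add', norm_neg, h2]; norm_num
      · simp only [pt, Bool.false_eq_true, if_false, if_true, sub_neg_eq_add, h2]; norm_num
      · exact absurd rfl h
    · have h1 : ‖pt e i - pt e j‖ ^ 2 = 2 := by
        rw [norm_sub_sq_real, inner_pt he ho hm, norm_pt he, norm_pt he]; norm_num
      nlinarith [norm_nonneg (pt e i - pt e j)]

end Geometry

lemma IsLeaf.congr {s : ℝ} {p : E} {T S T' S' : E → E} {u u' : E → ℝ} (h : IsLeaf s p T S u)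
    (hT : T' =ᶠ[𝓝 0] T) (hS : S' =ᶠ[𝓝 p] S) (hu : u' =ᶠ[𝓝 p] u) : IsLeaf s p T' S' u' := by
  have tT : Tendsto T (𝓝 0) (𝓝 p) := by
    have := h.evA.self_of_nhds.1.tendsto; rwa [h.T0] at this
  have tS : Tendsto S (𝓝 p) (𝓝 0) := by
    have := h.evP.self_of_nhds.1.continuousAt.tendsto
    have h0 := h.evA.self_of_nhds.2
    rw [h.T0] at h0
    rwa [h0] at this
  refine ⟨hT.eq_of_nhds.trans h.T0, hu.eq_of_nhds.trans h.u0, ?_, ?_⟩
  · filter_upwards [h.evA, hT.eventuallyEq_nhds, tT.eventually hS] with a h1 h2 h3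
    exact ⟨h1.1.congr h2.symm, by rw [h2.eq_of_nhds, h3, h1.2]⟩
  · filter_upwards [h.evP, hS.eventuallyEq_nhds, hu.eventuallyEq_nhds, tS.eventually hT]
      with y h1 h2 h3 h4
    exact ⟨h1.1.congr_of_eventuallyEq h2, by rw [h2.fderiv_eq]; exact h1.2.1,
      by rw [h2.eq_of_nhds, h4, h1.2.2.1], h1.2.2.2.congr h3.symm⟩

variable [FiniteDimensional ℝ E] [MeasurableSpace E] [BorelSpace E]

theorem exists_sheet' {s : ℝ} (hs : 0 < s) {e : E} (he : ‖e‖ = 1) :
    ∃ (T S : Bool → E → E) (u : Bool → E → ℝ),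
      (∀ b, Measurable (T b) ∧ Measurable (S b) ∧ Measurable (u b) ∧
        IsLeaf s (if b then e else -e) (T b) (S b) (u b)) ∧
      (∀ᶠ a in 𝓝 (0 : E), cR s (a, T false a, T true a) =
        uA s a + u false (T false a) + u true (T true a)) ∧
      ∀ᶠ p : E × E × E in 𝓝 (0, -e, e), uA s p.1 + u false p.2.1 + u true p.2.2 ≤ cR s p ∧
        (cR s p ≤ uA s p.1 + u false p.2.1 + u true p.2.2 →
          p.2.1 = T false p.1 ∧ p.2.2 = T true p.1) := by
  obtain ⟨B, SB, C, SC, uB, uC, hB, hC, h1, h2⟩ := exists_sheet hs he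
  obtain ⟨B', mB, eB⟩ := exists_measurable_eventuallyEq (hB.evA.mono fun _ h => h.1)
  obtain ⟨C', mC, eC⟩ := exists_measurable_eventuallyEq (hC.evA.mono fun _ h => h.1)
  obtain ⟨SB', mSB, eSB⟩ := exists_measurable_eventuallyEq (hB.evP.mono fun _ h => h.1.continuousAt)
  obtain ⟨SC', mSC, eSC⟩ := exists_measurable_eventuallyEq (hC.evP.mono fun _ h => h.1.continuousAt)
  obtain ⟨uB', muB, euB⟩ := exists_measurable_eventuallyEq (hB.evP.mono fun _ h => h.2.2.2)
  obtain ⟨uC', muC, euC⟩ := exists_measurable_eventuallyEq (hC.evP.mono fun _ h => h.2.2.2)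
  have tB : Tendsto B (𝓝 0) (𝓝 (-e)) := by
    have := hB.evA.self_of_nhds.1.tendsto; rwa [hB.T0] at this
  have tC : Tendsto C (𝓝 0) (𝓝 e) := by
    have := hC.evA.self_of_nhds.1.tendsto; rwa [hC.T0] at this
  refine ⟨fun b => if b then C' else B', fun b => if b then SC' else SB',
    fun b => if b then uC' else uB', ?_, ?_, ?_⟩
  · intro b
    cases b
    · exact ⟨mB, mSB, muB, hB.congr eB eSB euB⟩
    · exact ⟨mC, mSC, muC, hC.congr eC eSC euC⟩
  · filter_upwards [h1, eB, eC, tB.eventually euB, tC.eventually euC] with a a1 a2 a3 a4 a5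
    simp only [Bool.false_eq_true, if_false, if_true]
    rw [a2, a3, a4, a5, a1]
  · have t1 : Tendsto (fun p : E × E × E => p.1) (𝓝 (0, -e, e)) (𝓝 0) := continuous_fst.tendsto _
    have t2 : Tendsto (fun p : E × E × E => p.2.1) (𝓝 (0, -e, e)) (𝓝 (-e)) :=
      (continuous_fst.comp continuous_snd).tendsto _
    have t3 : Tendsto (fun p : E × E × E => p.2.2) (𝓝 (0, -e, e)) (𝓝 e) :=
      (continuous_snd.comp continuous_snd).tendsto _
    filter_upwards [h2, t1.eventually eB, t1.eventually eC, t2.eventually euB, t3.eventually euC]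
      with p a1 a2 a3 a4 a5
    simp only [Bool.false_eq_true, if_false, if_true]
    rw [a2, a3, a4, a5]
    exact a1

theorem exists_config {s : ℝ} (hs : 0 < s) {e : Fin 2 → E} (he : ∀ k, ‖e k‖ = 1)
    (ho : ⟪e 0, e 1⟫ = 0) :
    ∃ (T S : Idx → E → E) (pot : Option Idx → E → ℝ) (δ r : ℝ),
      0 < r ∧ r < δ ∧ δ ≤ 1 / 4 ∧ (∀ j, Measurable (T j)) ∧ (∀ j, Measurable (S j)) ∧
      (∀ i, Measurable (pot i)) ∧ (∀ j, ContinuousOn (T j) (closedBall 0 r)) ∧
      (∀ j, MapsTo (T j) (closedBall 0 r) (ball (pt e j) δ)) ∧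
      (∀ j, ∀ a ∈ ball (0 : E) δ, S j (T j a) = a) ∧
      (∀ j, ∀ y ∈ ball (pt e j) δ, ContDiffAt ℝ ∞ (S j) y ∧ (fderiv ℝ (S j) y).det ≠ 0) ∧
      (∀ j, InjOn (S j) (ball (pt e j) δ)) ∧
      (∀ i, ∀ x ∈ ball (cen e i) δ, pot i x ≤ 2) ∧
      (∀ m : Fin 2, ∀ a ∈ closedBall (0 : E) r, tripleCost s (a, T (m, false) a, T (m, true) a) =
        ENNReal.ofReal (pot none a) + ENNReal.ofReal (pot (some (m, false)) (T (m, false) a)) +
          ENNReal.ofReal (pot (some (m, true)) (T (m, true) a))) ∧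
      ∀ i j k, ∀ x ∈ ball (cen e i) δ, ∀ y ∈ ball (cen e j) δ, ∀ z ∈ ball (cen e k) δ,
        Ineq s T pot i j k (x, y, z) := by
  choose T S u hL h1 h2 using fun m : Fin 2 => exists_sheet' hs (he m)
  set T' : Idx → E → E := fun j => T j.1 j.2 with hT'
  set S' : Idx → E → E := fun j => S j.1 j.2 with hS'
  set pot : Option Idx → E → ℝ := fun i => i.elim (uA s) fun j => u j.1 j.2 with hpot
  have hleaf : ∀ j : Idx, IsLeaf s (pt e j) (T' j) (S' j) (pot (some j)) := fun j =>
    (hL j.1 j.2).2.2.2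
  have hη : (0 : ℝ) < 2 ^ (-s) := by positivity
  have hη1 : (2 : ℝ) ^ (-s) < 1 := Real.rpow_lt_one_of_one_lt_of_neg (by norm_num) (by linarith)
  have hcont : ∀ i, ContinuousAt (pot i) (cen e i) := by
    rintro (_ | j)
    · have : Continuous (uA s : E → ℝ) := by unfold uA; fun_prop
      exact this.continuousAt
    · exact (hleaf j).evP.self_of_nhds.2.2.2
  have hv0 : pot none 0 = 2 := by simp [hpot, uA]
  have hv1 : ∀ j, pot (some j) (pt e j) = 2 ^ (-s) / 2 := fun j => (hleaf j).u0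
  have hpos : ∀ i, ∀ᶠ x in 𝓝 (cen e i), 0 < pot i x := by
    intro i
    refine continuousAt_const.eventually_lt (hcont i) ?_
    rcases i with _ | j
    · simp only [cen]; rw [hv0]; norm_num
    · simp only [cen]; rw [hv1]; positivity
  have hle : ∀ i, ∀ᶠ x in 𝓝 (cen e i), pot i x ≤ 2 := by
    rintro (_ | j)
    · refine Eventually.of_forall fun x => ?_
      have : 0 ≤ 2 * s * ‖x‖ ^ 2 := by positivity
      simp only [hpot, Option.elim, uA]
      linarith
    · refine ((hcont (some j)).eventually_lt continuousAt_const ?_).mono fun x hx => hx.le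
      simp only [cen]; rw [hv1]; linarith
  have hne : ∀ m : Fin 2, ∀ᶠ p : E × E × E in 𝓝 (0, -e m, e m),
      p.1 - p.2.1 ≠ 0 ∧ p.1 - p.2.2 ≠ 0 ∧ p.2.1 - p.2.2 ≠ 0 := by
    intro m
    have he0 : e m ≠ 0 := by intro h; simpa [h] using he m
    refine Eventually.and ?_ (Eventually.and ?_ ?_)
    · exact ContinuousAt.eventually_ne (by fun_prop) (by simpa using he0)
    · exact ContinuousAt.eventually_ne (by fun_prop) (by simpa using he0)
    · refine ContinuousAt.eventually_ne (by fun_prop) ?_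
      have h2 : -e m - e m = (-2 : ℝ) • e m := by rw [neg_smul, two_smul]; abel
      simp only [h2]
      exact smul_ne_zero (by norm_num) he0
  -- conversion of the sum of potentials
  have hconv : ∀ m : Fin 2, ∀ᶠ p : E × E × E in 𝓝 (0, -e m, e m),
      tripleCost s p = ENNReal.ofReal (cR s p) ∧
      0 ≤ uA s p.1 + u m false p.2.1 + u m true p.2.2 ∧
      ENNReal.ofReal (pot none p.1) + ENNReal.ofReal (pot (some (m, false)) p.2.1) +
        ENNReal.ofReal (pot (some (m, true)) p.2.2) =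
        ENNReal.ofReal (uA s p.1 + u m false p.2.1 + u m true p.2.2) := by
    intro m
    have t1 : Tendsto (fun p : E × E × E => p.1) (𝓝 (0, -e m, e m)) (𝓝 (cen e none)) :=
      continuous_fst.tendsto _
    have t2 : Tendsto (fun p : E × E × E => p.2.1) (𝓝 (0, -e m, e m))
        (𝓝 (cen e (some (m, false)))) := (continuous_fst.comp continuous_snd).tendsto _
    have t3 : Tendsto (fun p : E × E × E => p.2.2) (𝓝 (0, -e m, e m))
        (𝓝 (cen e (some (m, true)))) := (continuous_snd.comp continuous_snd).tendsto _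
    filter_upwards [hne m, t1.eventually (hpos _), t2.eventually (hpos _), t3.eventually (hpos _)]
      with p a1 a2 a3 a4
    refine ⟨tripleCost_eq s a1.1 a1.2.1 a1.2.2, (add_pos (add_pos a2 a3) a4).le, ?_⟩
    rw [← ENNReal.ofReal_add a2.le a3.le, ← ENNReal.ofReal_add (add_pos a2 a3).le a4.le]
    rfl
  have hgood : ∀ m : Fin 2, ∀ᶠ q in 𝓝 ((cen e none, cen e (some (m, false)),
      cen e (some (m, true))) : E × E × E), Ineq s T' pot none (some (m, false)) (some (m, true)) q := by
    intro m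
    filter_upwards [h2 m, hconv m] with q a1 a2
    unfold Ineq
    rw [a2.1, a2.2.2]
    refine ⟨ENNReal.ofReal_le_ofReal a1.1, fun h => ?_⟩
    have := a1.2 ((ENNReal.ofReal_le_ofReal_iff a2.2.1).1 h)
    exact Or.inl ⟨m, rfl, rfl, rfl, this.1, this.2⟩
  have hfin : ∀ a b c : ℝ, ENNReal.ofReal a + ENNReal.ofReal b + ENNReal.ofReal c < ⊤ := by
    intro a b c
    simp [ENNReal.add_lt_top]
  have hA : ∀ j k : Idx, j ≠ k → ∀ᶠ q in 𝓝 ((cen e none, cen e (some j),
      cen e (some k)) : E × E × E), Ineq s T' pot none (some j) (some k) q := by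
    rintro ⟨m, b⟩ ⟨m', b'⟩ hjk
    by_cases hm : m = m'
    · subst hm
      cases b <;> cases b'
      · exact absurd rfl hjk
      · exact hgood m
      · exact ev_swap23 (hgood m)
      · exact absurd rfl hjk
    · refine ev_of_lt (hcont _) (hcont _) (hcont _) ?_
      simp only [cen, tripleCost]
      rw [hv0, hv1, hv1, pairCost_of_norm_one s (by simp [norm_pt he]),
        pairCost_of_norm_one s (by simp [norm_pt he]), add_assoc,
        ← ENNReal.ofReal_add (by positivity) (by positivity), add_halves, one_add_one_eq_two,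
        ENNReal.ofReal_ofNat]
      exact ENNReal.add_lt_add_left (by simp) (pairCost_gt hs (norm_pt_sub_lt he ho hm))
  have hall : ∀ i j k, ∀ᶠ q in 𝓝 ((cen e i, cen e j, cen e k) : E × E × E),
      Ineq s T' pot i j k q := by
    intro i j k
    by_cases hij : i = j
    · subst hij
      refine ev_of_lt (hcont _) (hcont _) (hcont _) ?_
      simp only [tripleCost, pairCost_self hs, top_add]
      exact hfin _ _ _
    by_cases hik : i = k
    · subst hik
      refine ev_of_lt (hcont _) (hcont _) (hcont _) ?_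
      simp only [tripleCost, pairCost_self hs, top_add, add_top]
      exact hfin _ _ _
    by_cases hjk : j = k
    · subst hjk
      refine ev_of_lt (hcont _) (hcont _) (hcont _) ?_
      simp only [tripleCost, pairCost_self hs, add_top]
      exact hfin _ _ _
    rcases i with _ | i <;> rcases j with _ | j <;> rcases k with _ | k
    · exact absurd rfl hij
    · exact absurd rfl hij
    · exact absurd rfl hik
    · exact hA j k fun h => hjk (by rw [h])
    · exact absurd rfl hjk
    · exact ev_swap12 (hA i k fun h => hik (by rw [h]))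
    · exact ev_swap23 (ev_swap12 (hA i j fun h => hij (by rw [h])))
    · refine ev_of_lt (hcont _) (hcont _) (hcont _) ?_
      have hb : ∀ j k : Idx, ‖pt e j - pt e k‖ ≤ 2 := fun j k => by
        have := norm_sub_le (pt e j) (pt e k)
        rw [norm_pt he, norm_pt he] at this
        linarith
      simp only [cen, tripleCost]
      rw [hv1, hv1, hv1]
      have hlt : ENNReal.ofReal (2 ^ (-s) / 2) < ENNReal.ofReal (2 ^ (-s)) :=
        (ENNReal.ofReal_lt_ofReal_iff hη).2 (by linarith)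
      exact ENNReal.add_lt_add (ENNReal.add_lt_add (hlt.trans_le (pairCost_ge hs (hb _ _)))
        (hlt.trans_le (pairCost_ge hs (hb _ _)))) (hlt.trans_le (pairCost_ge hs (hb _ _)))
  -- choice of the radii
  have key : ∀ {X : Type _} [PseudoMetricSpace X] {x : X} {P : X → Prop}, (∀ᶠ y in 𝓝 x, P y) →
      ∀ᶠ δ in 𝓝 (0 : ℝ), ∀ y ∈ closedBall x δ, P y := fun h =>
    (eventually_closedBall_subset h).mono fun δ hδ y hy => hδ hy
  have e1 := eventually_all.2 fun j : Idx => key (hleaf j).evA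
  have e2 := eventually_all.2 fun j : Idx => key (hleaf j).evP
  have e3 := eventually_all.2 fun i => key (hle i)
  have e4 := eventually_all.2 fun i => eventually_all.2 fun j => eventually_all.2 fun k =>
    key (hall i j k)
  have e5 : ∀ᶠ δ in 𝓝 (0 : ℝ), δ ≤ 1 / 4 := eventually_le_nhds (by norm_num)
  obtain ⟨δ, ⟨d1, d2, d3, d4, d5⟩, hδ⟩ := (((e1.and (e2.and (e3.and (e4.and e5)))).filter_mono
    nhdsWithin_le_nhds).and (self_mem_nhdsWithin (s := Ioi (0 : ℝ)))).exists
  have hδ0 : 0 < δ := hδ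
  have tT : ∀ j, Tendsto (T' j) (𝓝 0) (𝓝 (pt e j)) := fun j => by
    have := (hleaf j).evA.self_of_nhds.1.tendsto; rwa [(hleaf j).T0] at this
  have f1 := eventually_all.2 fun j : Idx => key ((tT j).eventually (ball_mem_nhds _ hδ0))
  have f2 := eventually_all.2 fun m : Fin 2 => key (h1 m)
  have f3 := eventually_all.2 fun m : Fin 2 => key (Tendsto.eventually
    (f := fun a : E => ((a, T' (m, false) a, T' (m, true) a) : E × E × E))
    (tendsto_id.prodMk_nhds ((tT (m, false)).prodMk_nhds (tT (m, true)))) (hconv m))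
  have f4 : ∀ᶠ r in 𝓝 (0 : ℝ), r < δ := eventually_lt_nhds hδ0
  obtain ⟨r, ⟨r1, r2, r3, r4⟩, hr⟩ := (((f1.and (f2.and (f3.and f4))).filter_mono
    nhdsWithin_le_nhds).and (self_mem_nhdsWithin (s := Ioi (0 : ℝ)))).exists
  refine ⟨T', S', pot, δ, r, hr, r4, d5, fun j => (hL j.1 j.2).1, fun j => (hL j.1 j.2).2.1, ?_,
    ?_, ?_, ?_, ?_, ?_, ?_, ?_, ?_⟩
  · rintro (_ | j)
    · have : Continuous (uA s : E → ℝ) := by unfold uA; fun_prop
      exact this.measurable
    · exact (hL j.1 j.2).2.2.1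
  · intro j a ha
    exact (d1 j a (closedBall_subset_closedBall r4.le ha)).1.continuousWithinAt
  · intro j a ha
    exact r1 j a ha
  · intro j a ha
    exact (d1 j a (ball_subset_closedBall ha)).2
  · intro j y hy
    exact ⟨(d2 j y (ball_subset_closedBall hy)).1, (d2 j y (ball_subset_closedBall hy)).2.1⟩
  · intro j y hy y' hy' h
    rw [← (d2 j y (ball_subset_closedBall hy)).2.2.1, h,
      (d2 j y' (ball_subset_closedBall hy')).2.2.1]
  · intro i x hx
    exact d3 i x (ball_subset_closedBall hx)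
  · intro m a ha
    obtain ⟨a1, -, a3⟩ := r3 m a ha
    rw [a1, a3]
    exact congrArg _ (r2 m a ha)
  · intro i j k x hx y hy z hz
    refine d4 i j k _ ?_
    rw [← closedBall_prod_same, ← closedBall_prod_same]
    exact ⟨ball_subset_closedBall hx, ball_subset_closedBall hy, ball_subset_closedBall hz⟩

end Crest.Agent.R130
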