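import Mathlib
import Crest.Agent.R130.Config

/-!
The transport problem for the five-piece marginal.
-/

namespace Crest.Agent.R130

open MeasureTheory Set Filter Topology Crest.AnalysisR.OT Metric
open scoped RealInnerProductSpace ContDiff ENNReal

section Abstract

variable {E : Type*} [NormedAddCommGroup E] [InnerProductSpace ℝ E] [MeasurableSpace E]
  [BorelSpace E] [PolishSpace E]

/-- The marginal. -/
noncomputable def mixM (T : Idx → E → E) (ν : Measure E) : Measure E :=
  (6⁻¹ : ℝ≥0∞) • (ν + ν + ∑ j, ν.map (T j))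

/-- The optimal plan. -/
noncomputable def planM (T : Idx → E → E) (ν : Measure E) : Measure (E × E × E) :=
  (6⁻¹ : ℝ≥0∞) • ∑ m : Fin 2, (ν.map (fun a => (a, T (m, false) a, T (m, true) a)) +
    ν.map (fun a => (T (m, false) a, T (m, true) a, a)) +
    ν.map (fun a => (T (m, true) a, a, T (m, false) a)))

lemma lintegral_mixM {T : Idx → E → E} (hT : ∀ j, Measurable (T j)) (ν : Measure E)
    {f : E → ℝ≥0∞} (hf : Measurable f) :
    ∫⁻ x, f x ∂(mixM T ν) = 6⁻¹ * ∫⁻ a, (f a + f a + ∑ j, f (T j a)) ∂ν := by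
  unfold mixM
  rw [lintegral_smul_measure, lintegral_add_measure, lintegral_add_measure,
    lintegral_finsetSum_measure, lintegral_add_left (f := fun a => f a + f a) (hf.add hf),
    lintegral_add_left hf, lintegral_finset_sum (f := fun j a => f (T j a)) _
      fun j _ => hf.comp (hT j)]
  simp only [lintegral_map hf (hT _), smul_eq_mul]

lemma ae_mixM {T : Idx → E → E} (hT : ∀ j, Measurable (T j)) (ν : Measure E)
    {p : E → Prop} (hp : MeasurableSet {x | p x}) (h1 : ∀ᵐ a ∂ν, p a)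
    (h2 : ∀ j, ∀ᵐ a ∂ν, p (T j a)) : ∀ᵐ x ∂(mixM T ν), p x := by
  unfold mixM
  refine Measure.ae_smul_measure ?_ _
  rw [ae_add_measure_iff, ae_add_measure_iff, ae_finsetSum_measure_iff]
  exact ⟨⟨h1, h1⟩, fun j _ => (ae_map_iff (hT j).aemeasurable hp).2 (h2 j)⟩

lemma ae_planM {T : Idx → E → E} (hT : ∀ j, Measurable (T j)) (ν : Measure E)
    {p : E × E × E → Prop} (hp : MeasurableSet {x | p x})
    (h : ∀ m : Fin 2, ∀ᵐ a ∂ν, p (a, T (m, false) a, T (m, true) a) ∧
      p (T (m, false) a, T (m, true) a, a) ∧ p (T (m, true) a, a, T (m, false) a)) :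
    ∀ᵐ x ∂(planM T ν), p x := by
  unfold planM
  refine Measure.ae_smul_measure ?_ _
  rw [ae_finsetSum_measure_iff]
  intro m _
  rw [ae_add_measure_iff, ae_add_measure_iff]
  refine ⟨⟨(ae_map_iff (by fun_prop) hp).2 ((h m).mono fun a ha => ha.1),
    (ae_map_iff (by fun_prop) hp).2 ((h m).mono fun a ha => ha.2.1)⟩,
    (ae_map_iff (by fun_prop) hp).2 ((h m).mono fun a ha => ha.2.2)⟩

lemma isCoupling_planM {T : Idx → E → E} (hT : ∀ j, Measurable (T j)) (ν : Measure E) :
    IsCoupling₃ (mixM T ν) (planM T ν) := by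
  have key : ∀ (g : E × E × E → E), Measurable g →
      (∀ m : Fin 2, ν.map (fun a => g (a, T (m, false) a, T (m, true) a)) +
        ν.map (fun a => g (T (m, false) a, T (m, true) a, a)) +
        ν.map (fun a => g (T (m, true) a, a, T (m, false) a)) =
        ν + ν.map (T (m, false)) + ν.map (T (m, true))) → (planM T ν).map g = mixM T ν := by
    intro g hg h
    unfold planM mixM
    rw [Measure.map_smul]
    congr 1
    simp only [Fin.sum_univ_two, Fintype.sum_prod_type, Fintype.sum_bool]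
    have hm : ∀ m : Fin 2, (ν.map (fun a => (a, T (m, false) a, T (m, true) a)) +
        ν.map (fun a => (T (m, false) a, T (m, true) a, a)) +
        ν.map (fun a => (T (m, true) a, a, T (m, false) a))).map g =
        ν + ν.map (T (m, false)) + ν.map (T (m, true)) := by
      intro m
      rw [Measure.map_add _ _ hg, Measure.map_add _ _ hg, Measure.map_map hg (by fun_prop),
        Measure.map_map hg (by fun_prop), Measure.map_map hg (by fun_prop), ← h m]
      rfl
    rw [Measure.map_add _ _ hg, hm, hm]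
    abel
  refine ⟨key _ (by fun_prop) fun m => ?_, key _ (by fun_prop) fun m => ?_,
    key _ (by fun_prop) fun m => ?_⟩
  · simp only [Measure.map_id']
  · simp only [Measure.map_id']
    abel
  · simp only [Measure.map_id']
    abel

theorem abstract_main {s : ℝ} (hs : 0 < s) (c : Option Idx → E)
    (hc : ∀ i j, i ≠ j → 1 ≤ ‖c i - c j‖) (T S : Idx → E → E) (pot : Option Idx → E → ℝ)
    (δ : ℝ) (hδ : δ ≤ 1 / 4) (K : Set E) (hKA : K ⊆ ball (c none) δ)
    (mT : ∀ j, Measurable (T j)) (mS : ∀ j, Measurable (S j)) (mpot : ∀ i, Measurable (pot i))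
    (hTK : ∀ j, MapsTo (T j) K (ball (c (some j)) δ))
    (hST : ∀ j, ∀ a ∈ ball (c none) δ, S j (T j a) = a)
    (hpot : ∀ i, ∀ x ∈ ball (c i) δ, pot i x ≤ 2)
    (heq : ∀ m : Fin 2, ∀ a ∈ K, tripleCost s (a, T (m, false) a, T (m, true) a) =
        ENNReal.ofReal (pot none a) + ENNReal.ofReal (pot (some (m, false)) (T (m, false) a)) +
          ENNReal.ofReal (pot (some (m, true)) (T (m, true) a)))
    (hineq : ∀ i j k, ∀ x ∈ ball (c i) δ, ∀ y ∈ ball (c j) δ, ∀ z ∈ ball (c k) δ,
        Ineq s T pot i j k (x, y, z))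
    (ν : Measure E) [IsProbabilityMeasure ν] (hν : ∀ᵐ a ∂ν, a ∈ K)
    (μ : Measure E) [NullSingletonClass μ] (hμ : μ = mixM T ν) :
    ∃ π₀ : Measure (E × E × E), IsCoupling₃ μ π₀ ∧ ∫⁻ p, tripleCost s p ∂π₀ < ⊤ ∧
      (∀ π : Measure (E × E × E), IsCoupling₃ μ π →
        ∫⁻ p, tripleCost s p ∂π₀ ≤ ∫⁻ p, tripleCost s p ∂π) ∧
      (∀ T₂ T₃ : E → E, Measurable T₂ → Measurable T₃ → μ.map T₂ = μ → μ.map T₃ = μ →
        ∫⁻ p, tripleCost s p ∂π₀ < ∫⁻ x, tripleCost s (x, T₂ x, T₃ x) ∂μ) ∧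
      (∀ ε : ℝ≥0∞, 0 < ε → ∃ T₂ T₃ : E → E, Measurable T₂ ∧ Measurable T₃ ∧
        μ.map T₂ = μ ∧ μ.map T₃ = μ ∧
        ∫⁻ x, tripleCost s (x, T₂ x, T₃ x) ∂μ < ∫⁻ p, tripleCost s p ∂π₀ + ε) := by
  classical
  have hsep : ∀ i j, i ≠ j → ∀ x ∈ ball (c i) δ, ∀ y ∈ ball (c j) δ, 1 / 2 < ‖x - y‖ := by
    intro i j hij x hx y hy
    have h1 := hc i j hij
    rw [mem_ball, dist_eq_norm] at hx hy
    have h2 : c i - c j = (x - y) - (x - c i) + (y - c j) := by abel
    have h3 := norm_add_le ((x - y) - (x - c i)) (y - c j)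
    have h4 := norm_sub_le (x - y) (x - c i)
    rw [← h2] at h3
    linarith
  have huniq : ∀ i j, ∀ x ∈ ball (c i) δ, x ∈ ball (c j) δ → i = j := by
    intro i j x hx hx'
    by_contra hij
    have := hsep i j hij x hx x hx'
    simp at this
    linarith
  set U : E → ℝ≥0∞ := fun x => ∑ i, (ball (c i) δ).indicator (fun x => ENNReal.ofReal (pot i x)) x
    with hU
  have mU : Measurable U := Finset.measurable_sum _ fun i _ =>
    (mpot i).ennreal_ofReal.indicator measurableSet_ball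
  have hUi : ∀ i, ∀ x ∈ ball (c i) δ, U x = ENNReal.ofReal (pot i x) := by
    intro i x hx
    simp only [hU]
    rw [Finset.sum_eq_single i, indicator_of_mem hx]
    · intro j _ hj
      exact indicator_of_notMem (fun h => hj (huniq j i x h hx)) _
    · simp
  have hprob : IsProbabilityMeasure μ := by
    constructor
    rw [← lintegral_one, hμ, lintegral_mixM mT ν measurable_const]
    simp only [Finset.sum_const, Finset.card_univ, Fintype.card_prod, Fintype.card_fin,
      Fintype.card_bool, lintegral_const, measure_univ, mul_one]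
    rw [show (1 + 1 + (2 * 2) • 1 : ℝ≥0∞) = 6 by norm_num]
    exact ENNReal.inv_mul_cancel (by norm_num) (by norm_num)
  have mΩ : MeasurableSet {x : E | ∃ i, x ∈ ball (c i) δ} := by
    rw [setOf_exists]
    exact MeasurableSet.iUnion fun i => measurableSet_ball
  have hΩ : ∀ᵐ x ∂μ, ∃ i, x ∈ ball (c i) δ := by
    rw [hμ]
    exact ae_mixM mT ν mΩ (hν.mono fun a ha => ⟨none, hKA ha⟩)
      fun j => hν.mono fun a ha => ⟨some j, hTK j ha⟩
  have hUfin : ∫⁻ x, U x ∂μ < ⊤ := by
    calc ∫⁻ x, U x ∂μ ≤ ∫⁻ _, 2 ∂μ := by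
          refine lintegral_mono_ae (hΩ.mono ?_)
          rintro x ⟨i, hi⟩
          rw [hUi i x hi]
          simpa using ENNReal.ofReal_le_ofReal (hpot i x hi)
      _ < ⊤ := by simp
  have mW : Measurable fun p : E × E × E => U p.1 + U p.2.1 + U p.2.2 := by fun_prop
  have mc : Measurable fun p : E × E × E => tripleCost s p := (continuous_tripleCost s).measurable
  have hW : ∀ π : Measure (E × E × E), IsCoupling₃ μ π →
      ∫⁻ p, (U p.1 + U p.2.1 + U p.2.2) ∂π = ∫⁻ x, U x ∂μ + ∫⁻ x, U x ∂μ + ∫⁻ x, U x ∂μ := by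
    intro π hπ
    rw [lintegral_add_left (by fun_prop), lintegral_add_left (by fun_prop)]
    congr 1
    congr 1
    · rw [← hπ.1, lintegral_map mU (by fun_prop)]
    · rw [← hπ.2.1, lintegral_map mU (by fun_prop)]
    · rw [← hπ.2.2, lintegral_map mU (by fun_prop)]
  have hae : ∀ π : Measure (E × E × E), IsCoupling₃ μ π → ∀ᵐ p ∂π, ∃ i j k,
      p.1 ∈ ball (c i) δ ∧ p.2.1 ∈ ball (c j) δ ∧ p.2.2 ∈ ball (c k) δ := by
    intro π hπ
    have h1 : ∀ᵐ p ∂π, ∃ i, p.1 ∈ ball (c i) δ :=
      ae_of_ae_map (μ := π) (f := fun p : E × E × E => p.1) (by fun_prop)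
        (by rw [hπ.1]; exact hΩ)
    have h2 : ∀ᵐ p ∂π, ∃ i, p.2.1 ∈ ball (c i) δ :=
      ae_of_ae_map (μ := π) (f := fun p : E × E × E => p.2.1) (by fun_prop)
        (by rw [hπ.2.1]; exact hΩ)
    have h3 : ∀ᵐ p ∂π, ∃ i, p.2.2 ∈ ball (c i) δ :=
      ae_of_ae_map (μ := π) (f := fun p : E × E × E => p.2.2) (by fun_prop)
        (by rw [hπ.2.2]; exact hΩ)
    filter_upwards [h1, h2, h3] with p ⟨i, hi⟩ ⟨j, hj⟩ ⟨k, hk⟩ using ⟨i, j, k, hi, hj, hk⟩
  have hle : ∀ π : Measure (E × E × E), IsCoupling₃ μ π →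
      ∀ᵐ p ∂π, U p.1 + U p.2.1 + U p.2.2 ≤ tripleCost s p := by
    intro π hπ
    filter_upwards [hae π hπ] with p ⟨i, j, k, hi, hj, hk⟩
    rw [hUi i _ hi, hUi j _ hj, hUi k _ hk]
    exact (hineq i j k _ hi _ hj _ hk).1
  have hπ₀ : IsCoupling₃ μ (planM T ν) := hμ ▸ isCoupling_planM mT ν
  have hae₀ : ∀ᵐ p ∂(planM T ν), tripleCost s p = U p.1 + U p.2.1 + U p.2.2 := by
    refine ae_planM mT ν (measurableSet_eq_fun mc mW) fun m => hν.mono fun a ha => ?_
    have h0 := heq m a ha
    rw [← hUi _ _ (hKA ha), ← hUi _ _ (hTK _ ha), ← hUi _ _ (hTK _ ha)] at h0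
    refine ⟨h0, ?_, ?_⟩
    · rw [tripleCost_swap23, tripleCost_swap12, h0]; ring
    · rw [tripleCost_swap12, tripleCost_swap23, h0]; ring
  have hcost₀ : ∫⁻ p, tripleCost s p ∂(planM T ν) =
      ∫⁻ x, U x ∂μ + ∫⁻ x, U x ∂μ + ∫⁻ x, U x ∂μ := by
    rw [lintegral_congr_ae hae₀, hW _ hπ₀]
  have hfin₀ : ∫⁻ p, tripleCost s p ∂(planM T ν) < ⊤ := by
    rw [hcost₀]
    simp [ENNReal.add_lt_top, hUfin]
  refine ⟨planM T ν, hπ₀, hfin₀, fun π hπ => ?_, fun T₂ T₃ m₂ m₃ h₂ h₃ => ?_,
    exists_approx hs μ _ hπ₀ ?_ hfin₀⟩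
  · rw [hcost₀, ← hW π hπ]
    exact lintegral_mono_ae (hle π hπ)
  · by_contra hcon
    rw [not_lt] at hcon
    have mF : Measurable fun x => ((x, T₂ x, T₃ x) : E × E × E) := by fun_prop
    have hπ : IsCoupling₃ μ (μ.map fun x => ((x, T₂ x, T₃ x) : E × E × E)) := by
      refine ⟨?_, ?_, ?_⟩
      · rw [Measure.map_map (by fun_prop) mF]; exact Measure.map_id
      · rw [Measure.map_map (by fun_prop) mF]; exact h₂
      · rw [Measure.map_map (by fun_prop) mF]; exact h₃
    rw [← lintegral_map mc mF, hcost₀, ← hW _ hπ] at hcon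
    have hEq := ae_eq_of_ae_le_of_lintegral_le (hle _ hπ)
      (by rw [hW _ hπ]; simp [hUfin.ne]) mc.aemeasurable hcon
    have hgood : ∀ᵐ x ∂μ, ∃ i j k, x ∈ ball (c i) δ ∧ T₂ x ∈ ball (c j) δ ∧ T₃ x ∈ ball (c k) δ ∧
        Good T i j k x (T₂ x) (T₃ x) := by
      filter_upwards [ae_of_ae_map mF.aemeasurable hEq, ae_of_ae_map mF.aemeasurable (hae _ hπ)]
        with x hx ⟨i, j, k, hi, hj, hk⟩
      refine ⟨i, j, k, hi, hj, hk, (hineq i j k _ hi _ hj _ hk).2 ?_⟩
      simp only at hx hi hj hk ⊢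
      rw [← hUi i _ hi, ← hUi j _ hj, ← hUi k _ hk, hx]
    set A₁ : Set E := ball (c none) δ ∩ (T₂ ⁻¹' ball (c (some (0, false))) δ ∪
      T₃ ⁻¹' ball (c (some (0, false))) δ) with hA₁
    have mA₁ : MeasurableSet A₁ :=
      measurableSet_ball.inter ((m₂ measurableSet_ball).union (m₃ measurableSet_ball))
    have hcount : ∀ D : Set E, MeasurableSet D → ν D = ν (D ∩ A₁) + ν (D ∩ A₁) := by
      intro D mD
      set f : Idx → E → ℝ≥0∞ := fun j => (ball (c (some j)) δ ∩ S j ⁻¹' D).indicator 1 with hf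
      have mf : ∀ j, Measurable (f j) := fun j =>
        measurable_one.indicator (measurableSet_ball.inter (mS j mD))
      have f0 : ∀ j i, i ≠ some j → ∀ x ∈ ball (c i) δ, f j x = 0 := fun j i hi x hx =>
        indicator_of_notMem (fun h => hi (huniq _ _ x hx h.1)) _
      have f1 : ∀ j, ∀ a ∈ ball (c none) δ, T j a ∈ ball (c (some j)) δ →
          f j (T j a) = D.indicator 1 a := by
        intro j a ha hT
        by_cases hD : a ∈ D
        · rw [indicator_of_mem hD]
          have : T j a ∈ ball (c (some j)) δ ∩ S j ⁻¹' D :=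
            ⟨hT, by rw [mem_preimage, hST j a ha]; exact hD⟩
          exact indicator_of_mem this _
        · rw [indicator_of_notMem hD]
          exact indicator_of_notMem (fun h => hD (by
            have := h.2; rwa [mem_preimage, hST j a ha] at this)) _
      have hint : ∀ j, ∫⁻ x, f j x ∂μ = 6⁻¹ * ν D := by
        intro j
        rw [hμ, lintegral_mixM mT ν (mf j), ← lintegral_indicator_one mD]
        congr 1
        refine lintegral_congr_ae (hν.mono fun a ha => ?_)
        simp only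
        rw [f0 j none (by simp) a (hKA ha), Finset.sum_eq_single j, f1 j a (hKA ha) (hTK j ha)]
        · simp
        · intro j' _ hj'
          exact f0 j (some j') (by simpa using hj') _ (hTK j' ha)
        · simp
      have hintA : ∫⁻ x, (D ∩ A₁).indicator 1 x ∂μ = 6⁻¹ * (ν (D ∩ A₁) + ν (D ∩ A₁)) := by
        rw [hμ, lintegral_mixM mT ν (measurable_one.indicator (mD.inter mA₁)),
          ← lintegral_indicator_one (mD.inter mA₁),
          ← lintegral_add_left (measurable_one.indicator (mD.inter mA₁))]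
        congr 1
        refine lintegral_congr_ae (hν.mono fun a ha => ?_)
        simp only
        rw [Finset.sum_eq_zero, add_zero]
        intro j _
        refine indicator_of_notMem (fun h => ?_) _
        have := huniq _ _ _ h.2.1 (hTK j ha)
        simp at this
      have hid : ∀ᵐ x ∂μ, f (0, false) (T₂ x) + f (0, false) (T₃ x) =
          f (0, true) x + (D ∩ A₁).indicator 1 x := by
        filter_upwards [hgood] with x ⟨i, j, k, hi, hj, hk, hG⟩
        have hnA : i ≠ none → (D ∩ A₁).indicator (1 : E → ℝ≥0∞) x = 0 := fun hi' =>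
          indicator_of_notMem (fun h => hi' (huniq _ _ _ hi h.2.1)) _
        have hA0 : i = none → (j = some (0, false) ∨ k = some (0, false)) →
            (D ∩ A₁).indicator (1 : E → ℝ≥0∞) x = D.indicator 1 x := by
          intro h1 h2
          have hx : x ∈ A₁ := by
            refine ⟨h1 ▸ hi, ?_⟩
            rcases h2 with h | h
            · exact Or.inl (h ▸ hj)
            · exact Or.inr (h ▸ hk)
          by_cases hD : x ∈ D
          · rw [indicator_of_mem hD, indicator_of_mem (mem_inter hD hx)]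
          · rw [indicator_of_notMem hD, indicator_of_notMem fun h => hD h.1]
        have hA1 : j ≠ some (0, false) → k ≠ some (0, false) →
            (D ∩ A₁).indicator (1 : E → ℝ≥0∞) x = 0 := by
          intro h1 h2
          refine indicator_of_notMem (fun h => ?_) _
          rcases h.2.2 with h | h
          · exact h1 (huniq _ _ _ hj h)
          · exact h2 (huniq _ _ _ hk h)
        generalize T₂ x = y at *
        generalize T₃ x = z at *
        rcases hG with ⟨m, rfl, rfl, rfl, h1, h2⟩ | ⟨m, rfl, rfl, rfl, h1, h2⟩ |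
          ⟨m, rfl, rfl, rfl, h1, h2⟩ | ⟨m, rfl, rfl, rfl, h1, h2⟩ | ⟨m, rfl, rfl, rfl, h1, h2⟩ |
          ⟨m, rfl, rfl, rfl, h1, h2⟩
        · rw [f0 _ _ (by simp) x hi, f0 _ _ (by simp) z hk]
          obtain rfl | rfl : m = 0 ∨ m = 1 := by fin_cases m <;> simp
          · rw [hA0 rfl (Or.inl rfl), h1, f1 _ _ hi (h1 ▸ hj)]; simp
          · rw [hA1 (by simp) (by simp), f0 _ _ (by simp) y hj]
        · rw [f0 _ _ (by simp) x hi, f0 _ _ (by simp) y hj]
          obtain rfl | rfl : m = 0 ∨ m = 1 := by fin_cases m <;> simp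
          · rw [hA0 rfl (Or.inr rfl), h1, f1 _ _ hi (h1 ▸ hk)]
          · rw [hA1 (by simp) (by simp), f0 _ _ (by simp) z hk]
        · rw [f0 _ _ (by simp) x hi, f0 _ _ (by simp) y hj, f0 _ _ (by simp) z hk, hnA (by simp)]
        · rw [f0 _ _ (by simp) y hj, hnA (by simp)]
          obtain rfl | rfl : m = 0 ∨ m = 1 := by fin_cases m <;> simp
          · rw [h1, h2, f1 _ _ hj (h1 ▸ hk), f1 _ _ hj (h2 ▸ hi)]; simp
          · rw [f0 _ _ (by simp) z hk, f0 _ _ (by simp) x hi]
        · rw [f0 _ _ (by simp) x hi, f0 _ _ (by simp) y hj, f0 _ _ (by simp) z hk, hnA (by simp)]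
        · rw [f0 _ _ (by simp) z hk, hnA (by simp)]
          obtain rfl | rfl : m = 0 ∨ m = 1 := by fin_cases m <;> simp
          · rw [h1, h2, f1 _ _ hk (h1 ▸ hj), f1 _ _ hk (h2 ▸ hi)]
          · rw [f0 _ _ (by simp) y hj, f0 _ _ (by simp) x hi]
      have h6 := lintegral_congr_ae hid
      rw [lintegral_add_left (f := fun x => f (0, false) (T₂ x)) ((mf _).comp m₂),
        lintegral_add_left (mf _),
        ← lintegral_map (mf _) m₂, ← lintegral_map (mf _) m₃, h₂, h₃, hint, hint, hintA,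
        ENNReal.add_right_inj (ENNReal.mul_ne_top (by simp) (measure_ne_top _ _)),
        ENNReal.mul_right_inj (by simp) (by simp)] at h6
      exact h6
    have h1 := hcount A₁ mA₁
    rw [inter_self] at h1
    have h0 : ν A₁ = 0 := by
      have := (ENNReal.add_right_inj (measure_ne_top ν A₁)).1 ((add_zero _).trans h1)
      exact this.symm
    have h2 := hcount univ MeasurableSet.univ
    rw [univ_inter, h0, measure_univ] at h2
    simp at h2
  · refine ae_planM mT ν ?_ fun m => hν.mono fun a ha => ?_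
    · exact (measurableSet_le (f := fun _ => (1 / 2 : ℝ)) (g := fun p : E × E × E => ‖p.1 - p.2.1‖)
        measurable_const (by fun_prop)).inter
        (measurableSet_le (f := fun _ => (1 / 2 : ℝ)) (g := fun p : E × E × E => ‖p.1 - p.2.2‖)
        measurable_const (by fun_prop))
    · exact ⟨⟨(hsep _ _ (by simp) _ (hKA ha) _ (hTK _ ha)).le,
        (hsep _ _ (by simp) _ (hKA ha) _ (hTK _ ha)).le⟩,
        ⟨(hsep _ _ (by simp) _ (hTK _ ha) _ (hTK _ ha)).le,
        (hsep _ _ (by simp) _ (hTK _ ha) _ (hKA ha)).le⟩,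
        ⟨(hsep _ _ (by simp) _ (hTK _ ha) _ (hKA ha)).le,
        (hsep _ _ (by simp) _ (hTK _ ha) _ (hTK _ ha)).le⟩⟩

end Abstract

end Crest.Agent.R130
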