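import Mathlib
import Crest.Agent.R130.Main

/-!
The smooth density of the five-piece marginal.
-/

namespace Crest.Agent.R130

open MeasureTheory Set Filter Topology Crest.AnalysisR.OT Metric
open scoped RealInnerProductSpace ContDiff ENNReal

theorem exists_density {E : Type*} [NormedAddCommGroup E] [InnerProductSpace ℝ E]
    [FiniteDimensional ℝ E] [MeasureSpace E] [BorelSpace E]
    [(volume : Measure E).IsAddHaarMeasure] (c : Option Idx → E) (hc0 : c none = 0)
    (hc : ∀ i j, i ≠ j → 1 ≤ ‖c i - c j‖) (T S : Idx → E → E) (δ r : ℝ) (hr : 0 < r)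
    (hrδ : r < δ) (hδ : δ ≤ 1 / 4) (mT : ∀ j, Measurable (T j))
    (hTc : ∀ j, ContinuousOn (T j) (closedBall 0 r))
    (hTK : ∀ j, MapsTo (T j) (closedBall 0 r) (ball (c (some j)) δ))
    (hST : ∀ j, ∀ a ∈ ball (0 : E) δ, S j (T j a) = a)
    (hS : ∀ j, ∀ y ∈ ball (c (some j)) δ, ContDiffAt ℝ ∞ (S j) y ∧ (fderiv ℝ (S j) y).det ≠ 0)
    (hinj : ∀ j, InjOn (S j) (ball (c (some j)) δ)) :
    ∃ ρ : E → ℝ, (∀ x, 0 ≤ ρ x) ∧ ContDiff ℝ ∞ ρ ∧ HasCompactSupport ρ ∧
      ContDiff ℝ ∞ (fun x => Real.sqrt (ρ x)) ∧ ∫ x, ρ x = 1 ∧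
      ∃ ν : Measure E, IsProbabilityMeasure ν ∧ (∀ᵐ a ∂ν, a ∈ closedBall (0 : E) r) ∧
        measOfDensity ρ = mixM T ν := by
  classical
  have huniq : ∀ i j, ∀ x ∈ ball (c i) δ, x ∈ ball (c j) δ → i = j := by
    intro i j x hx hx'
    by_contra hij
    have h1 := hc i j hij
    rw [mem_ball, dist_eq_norm] at hx hx'
    have h2 : c i - c j = (x - c j) - (x - c i) := by abel
    have h4 := norm_sub_le (x - c j) (x - c i)
    rw [← h2] at h4
    linarith
  let b : ContDiffBump (0 : E) := ⟨r / 2, r, by positivity, by linarith⟩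
  have hbs : HasCompactSupport fun x => b x ^ 2 := by
    have := b.hasCompactSupport
    exact this.comp_left (g := fun t : ℝ => t ^ 2) (by simp)
  have hbc : Continuous fun x => b x ^ 2 := b.continuous.pow 2
  have hI : 0 < ∫ x, b x ^ 2 :=
    hbc.integral_pos_of_hasCompactSupport_nonneg_nonzero (x := 0) hbs (fun x => sq_nonneg _)
      (by rw [b.one_of_mem_closedBall (mem_closedBall_self b.rIn_pos.le)]; norm_num)
  set I := ∫ x, b x ^ 2 with hIdef
  set ψ : E → ℝ := fun x => (√I)⁻¹ * b x with hψ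
  have hψs : ContDiff ℝ ∞ ψ := contDiff_const.mul b.contDiff
  have hψ0 : ∀ x, 0 ≤ ψ x := fun x => mul_nonneg (by positivity) b.nonneg
  have hψK : ∀ x ∉ closedBall (0 : E) r, ψ x = 0 := by
    intro x hx
    have : b x = 0 := b.zero_of_le_dist (by
      have : r < dist x 0 := by simpa using hx
      exact this.le)
    simp [hψ, this]
  have hψ2 : ∀ x, ψ x ^ 2 = I⁻¹ * b x ^ 2 := by
    intro x
    simp only [hψ, mul_pow, inv_pow, Real.sq_sqrt hI.le]
  have hψI : ∫⁻ x, ENNReal.ofReal (ψ x ^ 2) = 1 := by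
    rw [← ofReal_integral_eq_lintegral_ofReal]
    · simp only [hψ2]
      rw [integral_const_mul, ← hIdef, inv_mul_cancel₀ hI.ne']
      simp
    · simp only [hψ2]
      exact (hbc.integrable_of_hasCompactSupport hbs).const_mul _
    · exact Eventually.of_forall fun x => sq_nonneg _
  have hKA : closedBall (0 : E) r ⊆ ball 0 δ := closedBall_subset_ball hrδ
  choose σ hσs hσ0 hσK hσm using fun j => exists_push ψ hψs hψ0 (closedBall 0 r)
    (isCompact_closedBall 0 r) hψK (T j) (S j) (mT j) (hTc j) (ball (c (some j)) δ) isOpen_ball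
    (hTK j) (fun a ha => hST j a (hKA ha)) (hS j) (hinj j)
  set g : Option Idx → E → ℝ := fun i => i.elim (fun x => √2 * ψ x) σ with hg
  have hgs : ∀ i, ContDiff ℝ ∞ (g i) := by
    rintro (_ | j)
    · exact contDiff_const.mul hψs
    · exact hσs j
  have hg0 : ∀ i x, 0 ≤ g i x := by
    rintro (_ | j) x
    · exact mul_nonneg (by positivity) (hψ0 x)
    · exact hσ0 j x
  have hgz : ∀ i, ∀ x ∉ ball (c i) δ, g i x = 0 := by
    rintro (_ | j) x hx
    · rw [hc0] at hx
      simp [hg, hψK x fun h => hx (hKA h)]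
    · exact hσK j x fun ⟨a, ha, h⟩ => hx (h ▸ hTK j ha)
  set τ : E → ℝ := fun x => (√6)⁻¹ * ∑ i, g i x with hτ
  have hτs : ContDiff ℝ ∞ τ := contDiff_const.mul (ContDiff.sum fun i _ => hgs i)
  have hτ0 : ∀ x, 0 ≤ τ x := fun x =>
    mul_nonneg (by positivity) (Finset.sum_nonneg fun i _ => hg0 i x)
  have hτ2 : ∀ x, τ x ^ 2 = 6⁻¹ * (ψ x ^ 2 + ψ x ^ 2 + ∑ j, σ j x ^ 2) := by
    intro x
    have h1 : (∑ i, g i x) ^ 2 = ∑ i, g i x ^ 2 := by
      by_cases h : ∃ i, x ∈ ball (c i) δ
      · obtain ⟨i, hi⟩ := h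
        have hz : ∀ j, j ≠ i → g j x = 0 := fun j hj => hgz j x fun h => hj (huniq j i x h hi)
        rw [Finset.sum_eq_single i (fun j _ hj => hz j hj) (by simp),
          Finset.sum_eq_single i (fun j _ hj => by rw [hz j hj]; simp) (by simp)]
      · push Not at h
        simp [fun i => hgz i x (h i)]
    simp only [hτ, mul_pow, inv_pow, h1, Real.sq_sqrt (show (0 : ℝ) ≤ 6 by norm_num)]
    rw [Fintype.sum_option]
    simp only [hg, Option.elim, mul_pow, Real.sq_sqrt (show (0 : ℝ) ≤ 2 by norm_num)]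
    ring
  have hmψ : Measurable fun x => ENNReal.ofReal (ψ x ^ 2) :=
    (hψs.continuous.pow 2).measurable.ennreal_ofReal
  have hmσ : ∀ j, Measurable fun x => ENNReal.ofReal (σ j x ^ 2) := fun j =>
    ((hσs j).continuous.pow 2).measurable.ennreal_ofReal
  have hprob : IsProbabilityMeasure (measOfDensity fun x => ψ x ^ 2) := by
    constructor
    unfold measOfDensity
    rw [withDensity_apply _ MeasurableSet.univ, Measure.restrict_univ, hψI]
  have hmix : measOfDensity (fun x => τ x ^ 2) = mixM T (measOfDensity fun x => ψ x ^ 2) := by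
    unfold mixM
    simp only [← hσm]
    unfold measOfDensity
    ext A hA
    simp only [Measure.smul_apply, Measure.add_apply, Measure.finsetSum_apply,
      withDensity_apply _ hA, smul_eq_mul]
    rw [← lintegral_finsetSum _ fun j _ => hmσ j, ← lintegral_add_left hmψ,
      ← lintegral_add_left (f := fun a => ENNReal.ofReal (ψ a ^ 2) + ENNReal.ofReal (ψ a ^ 2))
        (hmψ.add hmψ), ← lintegral_const_mul' _ _ (by simp)]
    refine lintegral_congr fun x => ?_
    rw [hτ2, ENNReal.ofReal_mul (by norm_num), ENNReal.ofReal_add (by positivity) (by positivity),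
      ENNReal.ofReal_add (by positivity) (by positivity),
      ENNReal.ofReal_sum_of_nonneg fun j _ => sq_nonneg _, ENNReal.ofReal_inv_of_pos (by norm_num)]
    simp
  have hcs : HasCompactSupport fun x => τ x ^ 2 := by
    refine HasCompactSupport.intro (isCompact_iUnion fun i => isCompact_closedBall (c i) δ)
      fun x hx => ?_
    simp only [mem_iUnion, not_exists] at hx
    simp [hτ, fun i => hgz i x fun h => hx i (ball_subset_closedBall h)]
  refine ⟨fun x => τ x ^ 2, fun x => sq_nonneg _, hτs.pow 2, hcs, ?_, ?_, _, hprob, ?_, hmix⟩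
  · simpa only [Real.sqrt_sq (hτ0 _)] using hτs
  · rw [integral_eq_lintegral_of_nonneg_ae (Eventually.of_forall fun x => sq_nonneg _)
      (hτs.continuous.pow 2).aestronglyMeasurable]
    have h1 : measOfDensity (fun x => τ x ^ 2) univ = 1 := by
      rw [← lintegral_one, hmix, lintegral_mixM mT _ measurable_const]
      simp only [Finset.sum_const, Finset.card_univ, Fintype.card_prod, Fintype.card_fin,
        Fintype.card_bool, lintegral_const, measure_univ, mul_one]
      rw [show (1 + 1 + (2 * 2) • 1 : ℝ≥0∞) = 6 by norm_num]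
      exact ENNReal.inv_mul_cancel (by norm_num) (by norm_num)
    unfold measOfDensity at h1
    rw [withDensity_apply _ MeasurableSet.univ, Measure.restrict_univ] at h1
    rw [h1]
    simp
  · unfold measOfDensity
    rw [ae_withDensity_iff hmψ]
    refine Eventually.of_forall fun x hx => ?_
    by_contra h
    simp [hψK x h] at hx

end Crest.Agent.R130
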